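import Vale.Agent.P240.R2.H487.CG.A6

/-!
The BN-pair of the fixed group, part 3: the axioms.
-/

set_option autoImplicit false
set_option linter.all false

namespace Vale.Agent.P240.R2.H487.CG

open Subgroup Matrix Vale.Agent.P240.H195

section
variable {F : Type*} [Field F] [Finite F] {m : ℕ} {σ : F ≃+* F}

lemma mon_inv_typ {s : SLm m F} {τ : Equiv.Perm (Fin (m + 1))} (hτ : Typ τ) (hs : Mon s τ) :
    Mon s⁻¹ τ := by
  have h1 := mon_inv hs
  have h2 : τ⁻¹ = τ := by rw [inv_eq_iff_mul_eq_one]; exact hτ.sq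
  rwa [h2] at h1

theorem cg_BN0 {p : ℕ} [hp : Fact p.Prime] [CharP F p] (hm : 0 < m) (hσ : ∀ x, σ (σ x) = x)
    (hodd : m % 2 = 1 ∨ (∃ x, σ x ≠ x) ∨ (2 : F) ≠ 0) : BN0 (BG (m := m) σ) (NG σ) (SG σ) where
  norm := by
    intro n hn t ht htN
    exact (sl_BN0 (F := F) (m := m)).norm n.1 hn t.1 ht htN
  sub := fun s ⟨τ, hτ, hs⟩ => ⟨τ, hs⟩
  span := by
    refine le_antisymm ?_ (sup_le ((closure_le _).2 fun s ⟨τ, hτ, hs⟩ => ⟨τ, hs⟩) inf_le_right)
    rintro n ⟨w, hn⟩
    have hw : Cr w := mon_cr σ hn (fixed n)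
    refine cr_ind (P := fun w => ∀ n : ↥(GJ (m + 1) σ), Mon n.1 w →
      n ∈ closure (SG σ) ⊔ (BG σ ⊓ NG σ)) ?_ ?_ w hw n hn
    · intro n hn
      exact mem_sup_right ⟨mem_T' hn, 1, hn⟩
    · intro w τ hw hτ ih n hn
      obtain ⟨s, hs⟩ := exists_NG (F := F) (σ := σ) hτ.cr
      have h1 := ih (n * s) (mon_mul hn hs)
      have h2 : s ∈ closure (SG σ) ⊔ (BG σ ⊓ NG σ) := mem_sup_left (subset_closure ⟨τ, hτ, hs⟩)
      have : n = (n * s) * s⁻¹ := by group
      rw [this]
      exact mul_mem h1 (inv_mem h2)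
  sq := by
    rintro s ⟨τ, hτ, hs⟩
    have h1 : Mon (s * s).1 (τ * τ) := mon_mul hs hs
    rw [hτ.sq] at h1
    exact mem_T' h1
  mul := by
    rintro s ⟨τ, hτ, hs⟩ b hb n ⟨w, hn⟩
    have hw : Cr w := mon_cr σ hn (fixed n)
    have hc : Cell w (b * n).1 := ⟨n.1, hn, b.1, hb, 1, one_mem _, by
      rw [mul_one]; rfl⟩
    have e : (s * b * n).1 = s.1 * (b * n).1 := by
      change s.1 * b.1 * n.1 = s.1 * (b.1 * n.1)
      rw [mul_assoc]
    rcases cell_typ hτ hs (fixed s) (fixed (b * n)) hw hc with h1 | h1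
    · left
      rw [← e] at h1
      exact DC_fixed (p := p) hm hn h1
    · right
      rw [← e] at h1
      exact DC_fixed (p := p) hm (mon_mul hs hn) h1
  thick := by
    rintro s ⟨τ, hτ, hs⟩
    obtain ⟨u, hu1, hu2, a, b, hab, hne⟩ := exists_thick (F := F) (σ := σ) hτ hσ hodd
    refine ⟨mkG hu1, hu2.1, fun hcon => ?_⟩
    have h1 := not_up (mon_inv_typ hτ hs) (x := u) hab hne
    rw [inv_inv] at h1
    exact h1 hcon

theorem cg_BN {p : ℕ} [hp : Fact p.Prime] [CharP F p] (hm : 0 < m) (hσ : ∀ x, σ (σ x) = x)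
    (hodd : m % 2 = 1 ∨ (∃ x, σ x ≠ x) ∨ (2 : F) ≠ 0) : BN (BG (m := m) σ) (NG σ) (SG σ) where
  toBN0 := cg_BN0 (p := p) hm hσ hodd
  gen := by
    rw [eq_top_iff]
    intro x _
    obtain ⟨n, ⟨w, hn⟩, hd⟩ := (sl_SB (F := F) (p := p) hm).bruhat x.1
    have hw : Cr w := cell_cr σ hn (fixed x) hd
    obtain ⟨k, hk⟩ := exists_NG (F := F) (σ := σ) hw
    obtain ⟨a, ha, b, hb, hx⟩ := DC_fixed (p := p) hm (σ := σ) hk ⟨n, hn, hd⟩
    rw [hx]
    exact mul_mem (mul_mem (mem_sup_left ha) (mem_sup_right ⟨w, hk⟩)) (mem_sup_left hb)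

/-- `s x s⁻¹` is upper triangular -/
lemma up_conj_iff {s x : SLm m F} {τ : Equiv.Perm (Fin (m + 1))} (hs : Mon s τ) (hx : IsUp x) :
    IsUp (s * x * s⁻¹) ↔ ∀ a b, a < b → τ b < τ a → x.1 a b = 0 := by
  constructor
  · intro h a b _ hτ
    by_contra hne
    exact not_up hs hτ hne h
  · intro h u v huv
    by_contra hne
    obtain ⟨a, rfl⟩ := τ.surjective u
    obtain ⟨b, rfl⟩ := τ.surjective v
    have h1 := (mon_conj_ne hs x a b).1 hne
    rcases lt_trichotomy a b with h2 | h2 | h2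
    · exact h1 (h a b h2 huv)
    · rw [h2] at huv
      exact lt_irrefl _ huv
    · exact h1 (hx _ _ h2)

lemma diag_conj {s x : SLm m F} {τ : Equiv.Perm (Fin (m + 1))} (hs : Mon s τ) (hx : x ∈ UU m F)
    (j : Fin (m + 1)) : (s * x * s⁻¹).1 j j = 1 := by
  obtain ⟨j, rfl⟩ := τ.surjective j
  rw [mon_conj hs, hx.2, mul_one, mul_inv_cancel₀ (mon_ne hs j)]

/-- superdiagonal entries of conjugates -/
lemma conj_super {u x : SLm m F} (hu : u ∈ UU m F) (hx : x ∈ UU m F) {i : Fin m}
    (h0 : x.1 i.castSucc i.succ = 0) : (u * x * u⁻¹).1 i.castSucc i.succ = 0 := by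
  have hu' : IsUp u⁻¹ := inv_mem (mem_BU.2 hu.1)
  have hU : IsUp (u * x * u⁻¹) := up_mul (up_mul hu.1 hx.1) hu'
  have e : u * x * u⁻¹ * u = u * x := by group
  have h2 := up_mul_super hU hu.1 i
  rw [e, up_mul_super hu.1 hx.1, h0, hu.2, hu.2, hx.2, mul_zero, zero_add, mul_one] at h2
  have h3 : (u * x * u⁻¹).1 i.castSucc i.castSucc = 1 := by
    rw [up_mul_diag (up_mul hu.1 hx.1) hu', up_mul_diag hu.1 hx.1, up_inv_diag hu.1, hu.2,
      hx.2, inv_one, mul_one, mul_one]
  rw [h3, one_mul] at h2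
  rw [mul_one] at h2
  exact add_eq_left.1 h2.symm

/-- entries two above the diagonal -/
lemma mul_two {A B : SLm m F} (hA : A ∈ UU m F) (hB : B ∈ UU m F) {x y z : Fin (m + 1)}
    (hxy : x.val + 1 = y.val) (hyz : y.val + 1 = z.val) :
    (A * B).1 x z = B.1 x z + A.1 x y * B.1 y z + A.1 x z := by
  have n1 : x ≠ y := by rw [Ne, Fin.ext_iff]; omega
  have n2 : x ≠ z := by rw [Ne, Fin.ext_iff]; omega
  have n3 : y ≠ z := by rw [Ne, Fin.ext_iff]; omega
  rw [sl_mul]
  have h : ∑ k, A.1 x k * B.1 k z = ∑ k ∈ ({x, y, z} : Finset (Fin (m + 1))), A.1 x k * B.1 k z := by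
    symm
    refine Finset.sum_subset (Finset.subset_univ _) fun k _ hk => ?_
    simp only [Finset.mem_insert, Finset.mem_singleton, not_or] at hk
    rcases lt_or_ge k x with h1 | h1
    · rw [hA.1 x k h1, zero_mul]
    · have h2 : z < k := by
        rw [Fin.lt_def]
        have h3 : x.val ≤ k.val := h1
        have h4 : k.val ≠ x.val := fun h => hk.1 (Fin.ext h)
        have h5 : k.val ≠ y.val := fun h => hk.2.1 (Fin.ext h)
        have h6 : k.val ≠ z.val := fun h => hk.2.2 (Fin.ext h)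
        omega
      rw [hB.1 k z h2, mul_zero]
  rw [h, Finset.sum_insert (by simp [n1, n2]), Finset.sum_insert (by simp [n3]),
    Finset.sum_singleton, hA.2, hB.2]
  ring

lemma conj_two {u x : SLm m F} (hu : u ∈ UU m F) (hx : x ∈ UU m F) {i : Fin m} (hi : 2 * i.val + 2 = m)
    (h0 : x.1 i.castSucc i.succ = 0) (h1 : x.1 i.succ (Fin.rev i.castSucc) = 0)
    (h2 : x.1 i.castSucc (Fin.rev i.castSucc) = 0) :
    (u * x * u⁻¹).1 i.castSucc (Fin.rev i.castSucc) = 0 := by
  have hv : (Fin.rev i.castSucc).val + i.val = m := rev_val i.castSucc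
  have hU : u * x * u⁻¹ ∈ UU m F := mul_mem (mul_mem hu hx) (inv_mem hu)
  have e : u * x * u⁻¹ * u = u * x := by group
  have h3 : (u * x * u⁻¹ * u).1 i.castSucc (Fin.rev i.castSucc) =
      (u * x).1 i.castSucc (Fin.rev i.castSucc) := by rw [e]
  have hxy : i.castSucc.val + 1 = i.succ.val := by rw [Fin.val_castSucc, Fin.val_succ]
  have hyz : i.succ.val + 1 = (Fin.rev i.castSucc).val := by rw [Fin.val_succ]; omega
  rw [mul_two hU hu hxy hyz, mul_two hu hx hxy hyz, h1, h2, conj_super hu hx h0] at h3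
  rw [mul_zero, zero_mul, zero_add, add_zero, zero_add] at h3
  exact add_eq_left.1 h3

/-- inversions of the involutions -/
lemma typ_inv {τ : Equiv.Perm (Fin (m + 1))} (hτ : Typ τ) {x : SLm m F}
    (hx : ∀ a b, a < b → τ b < τ a → x.1 a b = 0) (hxU : x ∈ UU m F) {u : SLm m F} (hu : u ∈ UU m F) :
    ∀ a b, a < b → τ b < τ a → (u * x * u⁻¹).1 a b = 0 := by
  have hU : u * x * u⁻¹ ∈ UU m F := mul_mem (mul_mem hu hxU) (inv_mem hu)
  rcases hτ with ⟨i, h1, h2⟩ | ⟨i, hi⟩
  · have hv : (Fin.rev i.castSucc).val + i.val = m := rev_val i.castSucc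
    have hvc : i.castSucc.val = i.val := Fin.val_castSucc i
    have hvs : i.succ.val = i.val + 1 := Fin.val_succ i
    by_cases h3 : 2 * i.val + 1 = m
    · have e : Fin.rev i.castSucc = i.succ := by
        rw [Fin.ext_iff, Fin.val_succ]; omega
      rw [e] at hx ⊢
      have h0 : x.1 i.castSucc i.succ = 0 := by
        refine hx _ _ (cs_lt i) ?_
        rw [Equiv.swap_apply_left, Equiv.swap_apply_right]
        exact cs_lt i
      intro a b hab hτ
      obtain ⟨rfl, rfl⟩ := adj_swap i hab hτ.le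
      exact conj_super hu hxU h0
    · have hyz : i.succ ≠ Fin.rev i.castSucc := by rw [Ne, Fin.ext_iff]; omega
      have hxz : i.castSucc ≠ Fin.rev i.castSucc := by rw [Ne, Fin.ext_iff]; omega
      have h0 : x.1 i.castSucc i.succ = 0 := by
        refine hx _ _ (cs_lt i) ?_
        rw [Equiv.swap_apply_left, Equiv.swap_apply_of_ne_of_ne (cs_ne i).symm hyz, Fin.lt_def]
        omega
      have h0' : x.1 i.succ (Fin.rev i.castSucc) = 0 := by
        refine hx _ _ (by rw [Fin.lt_def]; omega) ?_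
        rw [Equiv.swap_apply_right, Equiv.swap_apply_of_ne_of_ne (cs_ne i).symm hyz]
        exact cs_lt i
      have h0'' : x.1 i.castSucc (Fin.rev i.castSucc) = 0 := by
        refine hx _ _ (by rw [Fin.lt_def]; omega) ?_
        rw [Equiv.swap_apply_right, Equiv.swap_apply_left, Fin.lt_def]
        omega
      have hk : (Fin.rev i).val = i.val + 1 := by rw [Fin.val_rev]; omega
      have e0 : (Fin.rev i).castSucc = i.succ := by
        rw [Fin.ext_iff, Fin.val_castSucc, Fin.val_succ, hk]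
      have e1 : (Fin.rev i).succ = Fin.rev i.castSucc := (rev_castSucc' i).symm
      intro a b hab hτ
      rw [Equiv.swap_apply_def, Equiv.swap_apply_def] at hτ
      have hcases : (a = i.castSucc ∧ b = i.succ) ∨ (a = i.succ ∧ b = Fin.rev i.castSucc) ∨
          (a = i.castSucc ∧ b = Fin.rev i.castSucc) := by
        simp only [Fin.ext_iff, Fin.lt_def] at hab ⊢
        split_ifs at hτ with c1 c2 c3 c4 c5 c6 <;> simp only [Fin.ext_iff, Fin.lt_def] at * <;> omega
      rcases hcases with ⟨rfl, rfl⟩ | ⟨rfl, rfl⟩ | ⟨rfl, rfl⟩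
      · exact conj_super hu hxU h0
      · have := conj_super hu hxU (i := Fin.rev i) (by rw [e0, e1]; exact h0')
        rwa [e0, e1] at this
      · exact conj_two hu hxU (by omega) h0 h0' h0''
  · have hr : (Fin.rev i).val = m - (i.val + 1) := Fin.val_rev i
    have hvc : i.castSucc.val = i.val := Fin.val_castSucc i
    have hvs : i.succ.val = i.val + 1 := Fin.val_succ i
    have hvc' : (Fin.rev i).castSucc.val = m - (i.val + 1) := by rw [Fin.val_castSucc, hr]
    have hvs' : (Fin.rev i).succ.val = m - (i.val + 1) + 1 := by rw [Fin.val_succ, hr]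
    have n1 : i.castSucc ≠ i.succ := cs_ne i
    have n2 : (Fin.rev i).castSucc ≠ (Fin.rev i).succ := cs_ne _
    have n3 : i.castSucc ≠ (Fin.rev i).castSucc := by rw [Ne, Fin.ext_iff]; omega
    have n4 : i.castSucc ≠ (Fin.rev i).succ := by rw [Ne, Fin.ext_iff]; omega
    have n5 : i.succ ≠ (Fin.rev i).castSucc := by rw [Ne, Fin.ext_iff]; omega
    have n6 : i.succ ≠ (Fin.rev i).succ := by rw [Ne, Fin.ext_iff]; omega
    have hsw : ∀ y, (sw i * sw (Fin.rev i)) y =
        if y = i.castSucc then i.succ else if y = i.succ then i.castSucc else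
          if y = (Fin.rev i).castSucc then (Fin.rev i).succ else
            if y = (Fin.rev i).succ then (Fin.rev i).castSucc else y := by
      intro y
      rw [Equiv.Perm.mul_apply]
      simp only [sw]
      by_cases h1 : y = i.castSucc
      · rw [if_pos h1, h1, Equiv.swap_apply_of_ne_of_ne n3 n4, Equiv.swap_apply_left]
      · by_cases h2 : y = i.succ
        · rw [if_neg h1, if_pos h2, h2, Equiv.swap_apply_of_ne_of_ne n5 n6,
            Equiv.swap_apply_right]
        · by_cases h3 : y = (Fin.rev i).castSucc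
          · rw [if_neg h1, if_neg h2, if_pos h3, h3, Equiv.swap_apply_left,
              Equiv.swap_apply_of_ne_of_ne n4.symm n6.symm]
          · by_cases h4 : y = (Fin.rev i).succ
            · rw [if_neg h1, if_neg h2, if_neg h3, if_pos h4, h4, Equiv.swap_apply_right,
                Equiv.swap_apply_of_ne_of_ne n3.symm n5.symm]
            · rw [if_neg h1, if_neg h2, if_neg h3, if_neg h4,
                Equiv.swap_apply_of_ne_of_ne h3 h4, Equiv.swap_apply_of_ne_of_ne h1 h2]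
    have h0 : x.1 i.castSucc i.succ = 0 := by
      refine hx _ _ (cs_lt i) ?_
      rw [hsw, hsw, if_neg (cs_ne i).symm, if_pos rfl, if_pos rfl]
      exact cs_lt i
    have h0' : x.1 (Fin.rev i).castSucc (Fin.rev i).succ = 0 := by
      refine hx _ _ (cs_lt _) ?_
      have e1 : (sw i * sw (Fin.rev i)) (Fin.rev i).castSucc = (Fin.rev i).succ := by
        rw [hsw, if_neg n3.symm, if_neg n5.symm, if_pos rfl]
      have e2 : (sw i * sw (Fin.rev i)) (Fin.rev i).succ = (Fin.rev i).castSucc := by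
        rw [hsw, if_neg n4.symm, if_neg n6.symm, if_neg n2.symm, if_pos rfl]
      rw [e1, e2]
      exact cs_lt _
    intro a b hab hτ
    rw [hsw, hsw] at hτ
    have hcases : (a = i.castSucc ∧ b = i.succ) ∨
        (a = (Fin.rev i).castSucc ∧ b = (Fin.rev i).succ) := by
      simp only [Fin.ext_iff, Fin.lt_def] at hab ⊢
      split_ifs at hτ <;> simp only [Fin.ext_iff, Fin.lt_def] at * <;> omega
    rcases hcases with ⟨rfl, rfl⟩ | ⟨rfl, rfl⟩
    · exact conj_super hu hxU h0
    · exact conj_super hu hxU h0'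

end

end Vale.Agent.P240.R2.H487.CG
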