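import Vale.Agent.P240.H195.BNOpp
import Vale.Agent.P240.R2.H487.CG.A7

/-!
The split BN-pair of the fixed group and of its central quotient.
-/

set_option autoImplicit false
set_option linter.all false

namespace Vale.Agent.P240.R2.H487.CG

open Subgroup Matrix Vale.Agent.P240.H195

section
variable {F : Type*} [Field F] [Finite F] {m : ℕ} {σ : F ≃+* F}

theorem cg_SB {p : ℕ} [hp : Fact p.Prime] [CharP F p] (hm : 0 < m) (hσ : ∀ x, σ (σ x) = x)
    (hodd : m % 2 = 1 ∨ (∃ x, σ x ≠ x) ∨ (2 : F) ≠ 0) :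
    SB p (BG (m := m) σ) (NG σ) (UG σ) (SG σ) where
  toBN := cg_BN (p := p) hm hσ hodd
  le := fun x hx => hx.1
  pgroup := by
    have h1 := (sl_SB (F := F) (p := p) hm).pgroup
    exact h1.comap_of_injective (GJ (m + 1) σ).subtype Subtype.val_injective
  normal := by
    intro b hb u hu
    exact (sl_SB (F := F) (p := p) hm).normal b.1 hb u.1 hu
  split := by
    intro b hb
    obtain ⟨u, hu, t, htB, htN, hbe⟩ := (sl_SB (F := F) (p := p) hm).split b.1 hb
    have htM : Mon t 1 := mem_T.1 (mem_inf.2 ⟨htB, htN⟩)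
    have h1 : th σ u * th σ t = u * t := by rw [← map_mul, ← hbe, fixed]
    have hthM : Mon (th σ t) 1 := by
      have := mon_th σ htM
      have e : rv (1 : Equiv.Perm (Fin (m + 1))) = 1 := cr_one
      rwa [e] at this
    have h2 : u⁻¹ * th σ u = t * (th σ t)⁻¹ := by
      calc u⁻¹ * th σ u = u⁻¹ * (th σ u * th σ t) * (th σ t)⁻¹ := by group
        _ = _ := by rw [h1]; group
    have h3 : u⁻¹ * th σ u ∈ UU m F := mul_mem (inv_mem hu) (uu_th σ hu)
    have h4 : Mon (u⁻¹ * th σ u) 1 := by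
      rw [h2]
      have := mon_mul htM (mon_inv hthM)
      rwa [inv_one, mul_one] at this
    have h5 := uu_mon_one h3 h4
    have h6 : th σ u = u := (inv_mul_eq_one.1 h5).symm
    have h7 : th σ t = t := by
      rw [h6] at h1
      exact mul_left_cancel h1
    exact ⟨mkG h6, hu, mkG h7, htB, htN, Subtype.ext hbe⟩
  coprime := by
    intro hdvd
    apply (sl_SB (F := F) (p := p) hm).coprime
    refine hdvd.trans ?_
    have : (BG (m := m) σ ⊓ NG σ : Subgroup _) = (BU m F ⊓ NM m F).comap (GJ (m + 1) σ).subtype := rfl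
    rw [this]
    exact Subgroup.card_comap_dvd_of_injective _ _ Subtype.val_injective
  strong := by
    rintro s ⟨τ, hτ, hs⟩ x hx hsx u hu
    have hx' : x.1 ∈ UU m F := hx
    have hu' : u.1 ∈ UU m F := hu
    have h1 : IsUp (s.1 * x.1 * s.1⁻¹) := hsx.1
    rw [up_conj_iff hs hx'.1] at h1
    have hU : u.1 * x.1 * u.1⁻¹ ∈ UU m F := mul_mem (mul_mem hu' hx') (inv_mem hu')
    exact ⟨(up_conj_iff hs hU.1).2 (typ_inv hτ h1 hx' hu'), fun j => diag_conj hs hU j⟩
  opp := by
    obtain ⟨n, hn⟩ := exists_NG (F := F) (σ := σ) (w := Fin.revPerm) (cr_of fun x => by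
      rw [Fin.revPerm_apply, Fin.revPerm_apply])
    refine ⟨n, ⟨_, hn⟩, fun x hx hwx => Subtype.ext (sl_ext fun i j => ?_)⟩
    have hx' : x.1 ∈ UU m F := hx
    have hwx' : IsUp (n.1 * x.1 * n.1⁻¹) := hwx.1
    change x.1.1 i j = (1 : SLm m F).1 i j
    rw [sl_one]
    rcases lt_trichotomy i j with h1 | h1 | h1
    · rw [if_neg h1.ne]
      by_contra hne
      have h2 := (mon_conj_ne hn x.1 i j).2 hne
      exact h2 (hwx' _ _ (by
        rw [Fin.revPerm_apply, Fin.revPerm_apply]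
        exact Fin.rev_lt_rev.2 h1))
    · rw [h1, if_pos rfl, hx'.2]
    · rw [if_neg h1.ne', hx'.1 i j h1]
  nonempty := by
    have hty : ∃ τ : Equiv.Perm (Fin (m + 1)), Typ τ := by
      by_cases h : 2 < m
      · exact ⟨_, Typ.C ⟨0, hm⟩ (by simpa using h)⟩
      · exact ⟨_, Typ.AB ⟨0, hm⟩ (by simp; omega) (by simp; omega)⟩
    obtain ⟨τ, hτ⟩ := hty
    obtain ⟨s, hs⟩ := exists_NG (F := F) (σ := σ) hτ.cr
    exact ⟨s, τ, hτ, hs⟩

end

section
variable {L : Type*} [Group L] {B N U : Subgroup L} {S : Set L} {p : ℕ}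

/-- the centre lies in `T` -/
lemma center_le_T [Finite L] (h : SB p B N U S) (hp : p.Prime) {z : L} (hz : ∀ g, z * g = g * z) :
    z ∈ B ∧ z ∈ N := by
  have hzB : z ∈ B := by
    refine h.mem_B_of_norm hp fun u hu => ?_
    have : z⁻¹ * u * z = u := by
      rw [mul_assoc, ← hz u]
      group
    rw [this]
    exact hu
  refine ⟨hzB, ?_⟩
  obtain ⟨u, hu, t, htB, htN, rfl⟩ := h.split z hzB
  obtain ⟨n, hn, hx⟩ := h.opp
  have h1 : n * (u * t) * n⁻¹ = u * t := by
    rw [← hz n]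
    group
  have h2 : n * u * n⁻¹ = (u * t) * (n * t * n⁻¹)⁻¹ := by
    have : n * (u * t) * n⁻¹ * (n * t * n⁻¹)⁻¹ = u * t * (n * t * n⁻¹)⁻¹ := by rw [h1]
    calc n * u * n⁻¹ = n * (u * t) * n⁻¹ * (n * t * n⁻¹)⁻¹ := by group
      _ = _ := this
  have h3 : n * u * n⁻¹ ∈ U := by
    refine h.conj_U hp hu ?_
    rw [h2]
    exact mul_mem hzB (inv_mem (h.norm n hn t htB htN))
  rw [hx u hu h3, one_mul]
  exact htN

/-- central quotients -/
theorem SB.centre_quot [Finite L] (h : SB p B N U S) (hp : p.Prime) :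
    SB p (B.map (QuotientGroup.mk' (center L))) (N.map (QuotientGroup.mk' (center L)))
      (U.map (QuotientGroup.mk' (center L))) (QuotientGroup.mk' (center L) '' S) := by
  refine SB.quot h hp (QuotientGroup.mk' (center L)) (QuotientGroup.mk'_surjective _) fun k hk => ?_
  have h1 : k ∈ center L := (QuotientGroup.eq_one_iff k).1 hk
  have h2 : ∀ g, k * g = g * k := fun g => (mem_center_iff.1 h1 g).symm
  obtain ⟨h3, h4⟩ := center_le_T h hp h2
  exact ⟨h3, h4, h2⟩

/-- the kernel condition -/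
lemma pi_mem [Finite L] (h : SB p B N U S) (hp : p.Prime) {x : L} :
    QuotientGroup.mk' (center L) x ∈ B.map (QuotientGroup.mk' (center L)) ↔ x ∈ B := by
  refine map_mem_iff fun k hk => ?_
  have h1 : k ∈ center L := (QuotientGroup.eq_one_iff k).1 hk
  exact (center_le_T h hp fun g => (mem_center_iff.1 h1 g).symm).1

end

end Vale.Agent.P240.R2.H487.CG
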