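import Vale.Agent.P240.H195.BNFree
import Vale.Agent.P240.R2.H487.CG.A8

/-!
The groups `PSp_n(F)` and `PSU_n(F)` are of Lie type.
-/

set_option autoImplicit false
set_option linter.all false

namespace Vale.Agent.P240.R2.H487.CG

open Subgroup Matrix Vale.Agent.P240.H195

section
variable {m : ℕ}

/-- the involution with index `k` -/
def ty (k : Fin m) : Equiv.Perm (Fin (m + 1)) :=
  if 2 * k.val + 2 < m then sw k * sw (Fin.rev k) else Equiv.swap k.castSucc (Fin.rev k.castSucc)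

lemma typ_iff {τ : Equiv.Perm (Fin (m + 1))} : Typ τ ↔ ∃ k : Fin m, 2 * k.val + 1 ≤ m ∧ τ = ty k := by
  constructor
  · rintro (⟨i, h1, h2⟩ | ⟨i, hi⟩)
    · exact ⟨i, h1, (if_neg (by omega)).symm⟩
    · exact ⟨i, by omega, (if_pos hi).symm⟩
  · rintro ⟨k, hk, rfl⟩
    unfold ty
    split_ifs with h
    · exact Typ.C k h
    · exact Typ.AB k hk (by omega)

lemma ty_ne {k : ℕ} (h1 : k < m) (h2 : k + 1 < m) (h : 2 * (k + 1) + 1 ≤ m) :
    ty (⟨k, h1⟩ : Fin m) * ty (⟨k + 1, h2⟩ : Fin m) ≠ ty (⟨k + 1, h2⟩ : Fin m) * ty (⟨k, h1⟩ : Fin m) := by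
  intro heq
  have h3 := congrArg (fun v : Equiv.Perm (Fin (m + 1)) => v (⟨k, h1⟩ : Fin m).castSucc) heq
  simp only [Equiv.Perm.mul_apply] at h3
  set x : Fin (m + 1) := (⟨k, h1⟩ : Fin m).castSucc with hx
  set y : Fin (m + 1) := (⟨k, h1⟩ : Fin m).succ with hy
  have hxv : x.val = k := rfl
  have hyv : y.val = k + 1 := rfl
  have hr1 : (Fin.rev (⟨k, h1⟩ : Fin m)).val = m - (k + 1) := Fin.val_rev _
  have hr2 : (Fin.rev (⟨k + 1, h2⟩ : Fin m)).val = m - (k + 1 + 1) := Fin.val_rev _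
  have e1 : ty (⟨k, h1⟩ : Fin m) x = y := by
    unfold ty
    rw [if_pos (by simp; omega), Equiv.Perm.mul_apply]
    have : sw (Fin.rev (⟨k, h1⟩ : Fin m)) x = x := by
      refine Equiv.swap_apply_of_ne_of_ne ?_ ?_ <;> rw [Ne, Fin.ext_iff] <;>
        simp only [Fin.val_castSucc, Fin.val_succ, hr1, hxv] <;> omega
    rw [this]
    exact Equiv.swap_apply_left _ _
  have e2 : ty (⟨k + 1, h2⟩ : Fin m) x = x := by
    unfold ty
    split_ifs with h4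
    · rw [Equiv.Perm.mul_apply]
      have : sw (Fin.rev (⟨k + 1, h2⟩ : Fin m)) x = x := by
        refine Equiv.swap_apply_of_ne_of_ne ?_ ?_ <;> rw [Ne, Fin.ext_iff] <;>
          simp only [Fin.val_castSucc, Fin.val_succ, hr2, hxv] at h4 ⊢ <;> omega
      rw [this]
      refine Equiv.swap_apply_of_ne_of_ne ?_ ?_ <;> rw [Ne, Fin.ext_iff] <;>
        simp only [Fin.val_castSucc, Fin.val_succ, hxv] <;> omega
    · have hv : (Fin.rev (⟨k + 1, h2⟩ : Fin m).castSucc).val + (k + 1) = m := rev_val _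
      refine Equiv.swap_apply_of_ne_of_ne ?_ ?_ <;> rw [Ne, Fin.ext_iff] <;>
        simp only [Fin.val_castSucc, hxv] <;> omega
  rw [e1, e2, e1] at h3
  unfold ty at h3
  have hyc : y = (⟨k + 1, h2⟩ : Fin m).castSucc := rfl
  split_ifs at h3 with h4
  · rw [Equiv.Perm.mul_apply] at h3
    have h5 : sw (Fin.rev (⟨k + 1, h2⟩ : Fin m)) y = y := by
      refine Equiv.swap_apply_of_ne_of_ne ?_ ?_ <;> rw [Ne, Fin.ext_iff] <;>
        simp only [Fin.val_castSucc, Fin.val_succ, hr2, hyv] at h4 ⊢ <;> omega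
    rw [h5, hyc] at h3
    simp only [sw] at h3
    rw [Equiv.swap_apply_left] at h3
    exact cs_ne _ h3
  · have hv : (Fin.rev (⟨k + 1, h2⟩ : Fin m).castSucc).val + (k + 1) = m := rev_val _
    rw [hyc, Equiv.swap_apply_left, Fin.ext_iff] at h3
    simp only [Fin.val_castSucc] at h3
    omega

end

section
variable {F : Type*} [Field F] [Finite F] {m : ℕ} {σ : F ≃+* F}

/-- the projection -/
abbrev pg (m : ℕ) (σ : F ≃+* F) : ↥(GJ (m + 1) σ) →* PGJ (m + 1) σ :=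
  QuotientGroup.mk' (center ↥(GJ (m + 1) σ))

theorem pg_SB {p : ℕ} [hp : Fact p.Prime] [CharP F p] (hm : 0 < m) (hσ : ∀ x, σ (σ x) = x)
    (hodd : m % 2 = 1 ∨ (∃ x, σ x ≠ x) ∨ (2 : F) ≠ 0) :
    SB p ((BG σ).map (pg m σ)) ((NG σ).map (pg m σ)) ((UG σ).map (pg m σ)) (pg m σ '' SG σ) :=
  SB.centre_quot (cg_SB (p := p) hm hσ hodd) hp.out

theorem pg_split {p : ℕ} [hp : Fact p.Prime] [CharP F p] (hm : 0 < m) (hσ : ∀ x, σ (σ x) = x)
    (hodd : m % 2 = 1 ∨ (∃ x, σ x ≠ x) ∨ (2 : F) ≠ 0) :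
    SplitBN p ((BG σ).map (pg m σ)) ((NG σ).map (pg m σ)) ((UG σ).map (pg m σ))
      (pg m σ '' SG σ) where
  toSB := pg_SB hm hσ hodd
  irr := by
    intro J hJ hne hne' hJB
    have hB : ∀ x, pg m σ x ∈ (BG σ).map (pg m σ) ↔ x ∈ BG σ :=
      fun x => pi_mem (cg_SB (p := p) hm hσ hodd) hp.out
    have hrep : ∀ {τ : Equiv.Perm (Fin (m + 1))} (_ : Typ τ) {s s' : ↥(GJ (m + 1) σ)},
        Mon s.1 τ → Mon s'.1 τ → pg m σ s ∈ J → pg m σ s' ∈ J := by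
      intro τ hτ s s' hs hs' hsJ
      by_contra hcon
      apply hJB _ hsJ _ ⟨⟨s', ⟨τ, hτ, hs'⟩, rfl⟩, hcon⟩
      rw [← map_inv, ← map_mul, hB]
      have : Mon (s⁻¹ * s').1 (τ⁻¹ * τ) := mon_mul (mon_inv hs) hs'
      rw [inv_mul_cancel] at this
      exact mem_T' this
    let J' : ℕ → Prop := fun k => ∃ (hk : k < m) (s : ↥(GJ (m + 1) σ)),
      Mon s.1 (ty ⟨k, hk⟩) ∧ pg m σ s ∈ J
    have htyp : ∀ {k : ℕ} (hk : k < m), 2 * k + 1 ≤ m → Typ (ty (⟨k, hk⟩ : Fin m)) :=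
      fun hk h => typ_iff.2 ⟨_, h, rfl⟩
    obtain ⟨k, hk, hk'⟩ : ∃ k, 2 * (k + 1) + 1 ≤ m ∧ ¬ (J' k ↔ J' (k + 1)) := by
      by_contra hcon
      push Not at hcon
      have hall : ∀ k, 2 * k + 1 ≤ m → (J' k ↔ J' 0) := by
        intro k
        induction k with
        | zero => exact fun _ => Iff.rfl
        | succ k ih => exact fun hk => (hcon k hk).symm.trans (ih (by omega))
      obtain ⟨x, hx⟩ := hne
      obtain ⟨s, ⟨τ, hτ, hs⟩, rfl⟩ := hJ hx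
      obtain ⟨y, hy, hyJ⟩ := hne'
      obtain ⟨s', ⟨τ', hτ', hs'⟩, rfl⟩ := hy
      obtain ⟨i, hi, rfl⟩ := typ_iff.1 hτ
      obtain ⟨j, hj, rfl⟩ := typ_iff.1 hτ'
      have h1 : J' 0 := (hall i hi).1 ⟨i.2, s, hs, hx⟩
      obtain ⟨hk, t, ht, htJ⟩ := (hall j hj).2 h1
      exact hyJ (hrep hτ' ht hs' htJ)
    have hk1 : k < m := by omega
    have hk2 : k + 1 < m := by omega
    have ht1 := htyp hk1 (by omega)
    have ht2 := htyp hk2 hk
    obtain ⟨a, ha⟩ := exists_NG (F := F) (σ := σ) ht1.cr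
    obtain ⟨b, hb⟩ := exists_NG (F := F) (σ := σ) ht2.cr
    have hcomm : ∀ {x y : ↥(GJ (m + 1) σ)} {w v : Equiv.Perm (Fin (m + 1))}, Mon x.1 w → Mon y.1 v →
        w * v ≠ v * w →
        (pg m σ y * pg m σ x)⁻¹ * (pg m σ x * pg m σ y) ∉ (BG σ).map (pg m σ) := by
      intro x y w v hx hy hwv hcon
      rw [← map_mul, ← map_mul, ← map_inv, ← map_mul, hB] at hcon
      have h1 : Mon ((y * x)⁻¹ * (x * y)).1 ((v * w)⁻¹ * (w * v)) :=
        mon_mul (mon_inv (mon_mul hy hx)) (mon_mul hx hy)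
      have h2 := mon_up h1 hcon
      rw [inv_mul_eq_one] at h2
      exact hwv h2.symm
    by_cases h1 : J' k
    · have h2 : ¬ J' (k + 1) := fun h2 => hk' (iff_of_true h1 h2)
      obtain ⟨hk3, s, hs, hsJ⟩ := h1
      exact ⟨pg m σ a, hrep ht1 hs ha hsJ, pg m σ b,
        ⟨⟨b, ⟨_, ht2, hb⟩, rfl⟩, fun h3 => h2 ⟨hk2, b, hb, h3⟩⟩, hcomm ha hb (ty_ne hk1 hk2 hk)⟩
    · have h2 : J' (k + 1) := by
        by_contra h2
        exact hk' (iff_of_false h1 h2)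
      obtain ⟨hk3, s, hs, hsJ⟩ := h2
      exact ⟨pg m σ b, hrep ht2 hs hb hsJ, pg m σ a,
        ⟨⟨a, ⟨_, ht1, ha⟩, rfl⟩, fun h3 => h1 ⟨hk1, a, ha, h3⟩⟩,
        hcomm hb ha (ty_ne hk1 hk2 hk).symm⟩

/-- **Lie type**: `PSp_n(F)`, `PSU_n(F)`, and `SO_n(F)` in odd dimension -/
theorem pg_lieType {p : ℕ} [hp : Fact p.Prime] [CharP F p] (hm : 0 < m) (hσ : ∀ x, σ (σ x) = x)
    (hodd : m % 2 = 1 ∨ (∃ x, σ x ≠ x) ∨ (2 : F) ≠ 0) (hs : IsSimpleGroup (PGJ (m + 1) σ))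
    (hZ : ∀ x : PGJ (m + 1) σ, (∀ y, x * y = y * x) → x = 1) : LieType p (PGJ (m + 1) σ) :=
  ⟨hs, hZ, _, _, _, _, pg_split hm hσ hodd⟩

end

end Vale.Agent.P240.R2.H487.CG
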