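import Mathlib.LinearAlgebra.Matrix.SpecialLinearGroup

/-!
The classical groups of matrices fixed by the standard graph automorphism composed with a field
automorphism: symplectic and unitary groups, and orthogonal groups in odd dimension.
-/

set_option autoImplicit false

namespace Vale.Agent.P240.R2.H487.CG

open Matrix

variable {F : Type*} [Field F]

/-- The antidiagonal matrix of degree `n` with entries `1, -1, 1, …`. -/
def JJ (n : ℕ) (F : Type*) [Field F] : Matrix (Fin n) (Fin n) F :=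
  Matrix.of fun i j => if j = Fin.rev i then (-1) ^ i.val else 0

/-- The group of matrices `A` of determinant `1` with `(σ A)ᵀ J A = J`: for `σ = 1` this is the
symplectic group `Sp_n(F)` if `n` is even and the special orthogonal group if `n` is odd; for a field
automorphism `σ ≠ 1` with `σ ^ 2 = 1` it is the special unitary group. -/
def GJ (n : ℕ) (σ : F ≃+* F) : Subgroup (SpecialLinearGroup (Fin n) F) where
  carrier := {A | (A.1.map σ)ᵀ * JJ n F * A.1 = JJ n F}
  mul_mem' := by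
    intro A B (hA : (A.1.map σ)ᵀ * JJ n F * A.1 = JJ n F) (hB : (B.1.map σ)ᵀ * JJ n F * B.1 = JJ n F)
    change ((A * B).1.map σ)ᵀ * JJ n F * (A * B).1 = JJ n F
    have h1 : ((A * B).1.map σ)ᵀ = (B.1.map σ)ᵀ * (A.1.map σ)ᵀ := by
      rw [SpecialLinearGroup.coe_mul, ← Matrix.transpose_mul]
      congr 1
      exact Matrix.map_mul
    rw [h1, SpecialLinearGroup.coe_mul]
    calc (B.1.map σ)ᵀ * (A.1.map σ)ᵀ * JJ n F * (A.1 * B.1)
        = (B.1.map σ)ᵀ * ((A.1.map σ)ᵀ * JJ n F * A.1) * B.1 := by simp only [Matrix.mul_assoc]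
      _ = JJ n F := by rw [hA, hB]
  one_mem' := by
    change ((1 : SpecialLinearGroup (Fin n) F).1.map σ)ᵀ * JJ n F *
      (1 : SpecialLinearGroup (Fin n) F).1 = JJ n F
    rw [SpecialLinearGroup.coe_one, Matrix.map_one σ (map_zero σ) (map_one σ), Matrix.transpose_one, Matrix.one_mul,
      Matrix.mul_one]
  inv_mem' := by
    intro A (hA : (A.1.map σ)ᵀ * JJ n F * A.1 = JJ n F)
    change ((A⁻¹).1.map σ)ᵀ * JJ n F * (A⁻¹).1 = JJ n F
    have h0 : A.1 * (A⁻¹).1 = 1 := by
      rw [← SpecialLinearGroup.coe_mul, mul_inv_cancel, SpecialLinearGroup.coe_one]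
    have h1 : ((A⁻¹).1.map σ)ᵀ * (A.1.map σ)ᵀ = 1 := by
      rw [← Matrix.transpose_mul, ← Matrix.map_mul, h0,
        Matrix.map_one σ (map_zero σ) (map_one σ), Matrix.transpose_one]
    calc ((A⁻¹).1.map σ)ᵀ * JJ n F * (A⁻¹).1
        = ((A⁻¹).1.map σ)ᵀ * ((A.1.map σ)ᵀ * JJ n F * A.1) * (A⁻¹).1 := by rw [hA]
      _ = (((A⁻¹).1.map σ)ᵀ * (A.1.map σ)ᵀ) * JJ n F * (A.1 * (A⁻¹).1) := by
        simp only [Matrix.mul_assoc]
      _ = JJ n F := by rw [h1, h0, Matrix.one_mul, Matrix.mul_one]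

/-- The quotient of the group of matrices `A` of determinant `1` with `(σ A)ᵀ J A = J` by its centre:
`PSp_n(F)` if `σ = 1` and `n` is even, `SO_n(F)` if `σ = 1` and `n` is odd, `PSU_n(F)` if `σ ≠ 1` and
`σ ^ 2 = 1`. -/
abbrev PGJ (n : ℕ) (σ : F ≃+* F) : Type _ := ↥(GJ n σ) ⧸ Subgroup.center ↥(GJ n σ)

end Vale.Agent.P240.R2.H487.CG
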