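import Vale.Agent.P240.H195.SLK
import Vale.Agent.P240.R2.H487.CG.A9

/-!
The groups `PSp_n(F)` and `PSU_n(F)` as composition factors.
-/

set_option autoImplicit false
set_option linter.all false

namespace Vale.Agent.P240.R2.H487.CG

open Subgroup Matrix Vale.Agent.P240.K Vale.Agent.P240.H195

universe u v

/-- `L` is isomorphic to a symplectic group `PSp_n(F)` (`n` even, `σ = 1`) or a unitary group
`PSU_n(F)` (`σ ^ 2 = 1`, `σ ≠ 1`) over a finite field of characteristic `r`. -/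
def IsCG (r : ℕ) (L : Type*) [Group L] : Prop :=
  ∃ (n : ℕ) (F : Type) (_ : Field F) (_ : Finite F) (σ : F ≃+* F), (r : F) = 0 ∧
    (∀ x, σ (σ x) = x) ∧ 2 ≤ n ∧ (n % 2 = 0 ∨ ∃ x, σ x ≠ x) ∧ Nonempty (L ≃* PGJ n σ)

lemma charP_of {F : Type*} [Field F] {r : ℕ} (hr : r.Prime) (h : (r : F) = 0) : CharP F r := by
  obtain ⟨s, hs⟩ := CharP.exists F
  have h1 : s ∣ r := (CharP.cast_eq_zero_iff F s r).1 h
  rcases (Nat.dvd_prime hr).1 h1 with h2 | h2
  · exact absurd h2 (CharP.char_ne_one F s)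
  · rw [← h2]; exact hs

variable {L : Type*} [Group L]

/-- **Lie type** -/
theorem IsCG.lieType {r : ℕ} (hr : r.Prime) (hs : IsSimpleGroup L) (hn : ∃ x y : L, x * y ≠ y * x)
    (h : IsCG r L) : LieType r L := by
  obtain ⟨n, F, hF1, hF2, σ, hrF, hσ, hn2, hpar, ⟨e⟩⟩ := h
  obtain ⟨m, rfl⟩ : ∃ m, n = m + 1 := ⟨n - 1, by omega⟩
  have : Fact r.Prime := ⟨hr⟩
  have : CharP F r := charP_of hr hrF
  have hc := centreless_of_simple hs hn
  have hs' : IsSimpleGroup (PGJ (m + 1) σ) := e.symm.isSimpleGroup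
  have hc' : ∀ x : PGJ (m + 1) σ, (∀ y, x * y = y * x) → x = 1 := centreless_tr e hc
  exact (pg_lieType (by omega) hσ (hpar.imp (fun h => by omega) Or.inl) hs' hc').tr e.symm

/-- good composition factors in the characteristics `l` and `char 𝕜` -/
theorem IsCG.good {𝕜 : Type v} [Field 𝕜] {p l : ℕ} [hp : Fact p.Prime] {G : Type u} [Group G]
    {L : Type u} [Group L] (hL : CompFactor G L) {r : ℕ} (hr : r.Prime) (hrp : r ≠ p)
    (h : IsCG r L) (h' : r = l ∨ (r : 𝕜) = 0 ∨ FewAut p L ∨ ¬ p ∣ Nat.card L) :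
    GoodFactor 𝕜 p l L := by
  have hlie := h.lieType hr hL.1 hL.2.1
  have : Finite L := by
    obtain ⟨n, F, hF1, hF2, σ, -, -, -, -, ⟨e⟩⟩ := h
    exact Finite.of_equiv _ e.symm.toEquiv
  refine Or.inr (Or.inr (Or.inr (Or.inl ⟨r, hr, hlie.autFree hr hp.out (Ne.symm hrp), ?_⟩)))
  rcases h' with h1 | h1 | h1 | h1
  · exact Or.inl h1
  · exact Or.inr (Or.inl ⟨hrp, h1⟩)
  · exact Or.inr (Or.inr (Or.inl h1))
  · exact Or.inr (Or.inr (Or.inr h1))

end Vale.Agent.P240.R2.H487.CG
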