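import Vale.Agent.P240.R2.H487.CG.B1
import Vale.Agent.P240.R2.H775.RG8

/-!
The groups `PSp_n(F)` and `PSU_n(F)` in characteristic `p`.
-/

set_option autoImplicit false
set_option linter.all false

namespace Vale.Agent.P240.R2.H487.CG

open Subgroup Matrix Vale.Agent.P240.K Vale.Agent.P240.H195

variable {L : Type*} [Group L]

/-- **Rigid Lie type** -/
theorem IsCG.rigidLie {r : ℕ} (hr : r.Prime) (hs : IsSimpleGroup L) (hn : ∃ x y : L, x * y ≠ y * x)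
    (h : IsCG r L)
    (h3 : ∀ (F : Type) [Field F] [Finite F] (σ : F ≃+* F), (∀ x, σ (σ x) = x) → (∃ x, σ x ≠ x) →
      (∀ k, σ k = k → k = 0 ∨ k = 1) → ¬ IsSimpleGroup (PGJ 3 σ)) : RigidLie r L := by
  obtain ⟨n, F, hF1, hF2, σ, hrF, hσ, hn2, hpar, ⟨e⟩⟩ := h
  obtain ⟨m, rfl⟩ : ∃ m, n = m + 1 := ⟨n - 1, by omega⟩
  have : Fact r.Prime := ⟨hr⟩
  have : CharP F r := charP_of hr hrF
  have hc := centreless_of_simple hs hn
  have hs' : IsSimpleGroup (PGJ (m + 1) σ) := e.symm.isSimpleGroup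
  have hc' : ∀ x : PGJ (m + 1) σ, (∀ y, x * y = y * x) → x = 1 := centreless_tr e hc
  have hpar' : m % 2 = 1 ∨ ∃ x, σ x ≠ x := hpar.imp (fun h => by omega) id
  refine (H775.RG.pg_rigidLie (by omega) hσ hpar' ?_ hs' hc').tr e.symm
  by_cases hm : m % 2 = 1
  · exact Or.inl hm
  by_cases hk : ∃ k, σ k = k ∧ k ≠ 0 ∧ k ≠ 1
  · exact Or.inr (Or.inl hk)
  by_cases hm2 : 2 < m
  · exact Or.inr (Or.inr hm2)
  have hm' : m = 2 := by omega
  subst hm'
  refine absurd hs' (h3 F σ hσ (hpar'.resolve_left hm) fun k hk' => ?_)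
  by_contra hcon
  push Not at hcon
  exact hk ⟨k, hk', hcon.1, hcon.2⟩

end Vale.Agent.P240.R2.H487.CG
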