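import Vale.Agent.P240.H195.SL5
import Vale.Agent.P240.R2.H487.CG.Defs

/-!
The graph-field automorphism of the special linear group.
-/

set_option autoImplicit false
set_option linter.all false

namespace Vale.Agent.P240.R2.H487.CG

open Subgroup Matrix Vale.Agent.P240.H195

section
variable {F : Type*} [Field F] {m : ℕ} (σ : F ≃+* F)

lemma rev_val (i : Fin (m + 1)) : (Fin.rev i).val + i.val = m := by
  rw [Fin.val_rev]
  have := i.2
  omega

lemma neg_one_pow_eq {a b : ℕ} (h : (a + b) % 2 = 0) : ((-1 : F)) ^ a = (-1) ^ b := by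
  have h1 : ((-1 : F)) ^ a * (-1) ^ b = 1 := by
    rw [← pow_add]
    exact Even.neg_one_pow (Nat.even_iff.2 h)
  have h2 : ((-1 : F)) ^ b * (-1) ^ b = 1 := by
    rw [← pow_add]
    exact Even.neg_one_pow ⟨b, rfl⟩
  have h3 : ((-1 : F)) ^ b ≠ 0 := pow_ne_zero _ (neg_ne_zero.2 one_ne_zero)
  exact mul_right_cancel₀ h3 (h1.trans h2.symm)

lemma sg_sq (a : ℕ) : ((-1 : F)) ^ (a + a) = 1 := Even.neg_one_pow ⟨a, rfl⟩

/-- twisted transposition -/
def tt (A : Matrix (Fin (m + 1)) (Fin (m + 1)) F) : Matrix (Fin (m + 1)) (Fin (m + 1)) F :=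
  Matrix.of fun i j => (-1) ^ (i.val + j.val) * σ (A (Fin.rev j) (Fin.rev i))

lemma tt_apply (A : Matrix (Fin (m + 1)) (Fin (m + 1)) F) (i j : Fin (m + 1)) :
    tt σ A i j = (-1) ^ (i.val + j.val) * σ (A (Fin.rev j) (Fin.rev i)) := rfl

lemma tt_one : tt σ (1 : Matrix (Fin (m + 1)) (Fin (m + 1)) F) = 1 := by
  ext i j
  rw [tt_apply, Matrix.one_apply, Matrix.one_apply]
  by_cases h : i = j
  · subst h
    rw [if_pos rfl, if_pos rfl, map_one, sg_sq, one_mul]
  · rw [if_neg h, if_neg (fun h1 => h (Fin.rev_injective h1).symm), map_zero, mul_zero]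

lemma tt_mul (A B : Matrix (Fin (m + 1)) (Fin (m + 1)) F) : tt σ (A * B) = tt σ B * tt σ A := by
  ext i j
  rw [tt_apply, Matrix.mul_apply, Matrix.mul_apply, map_sum, Finset.mul_sum,
    ← Equiv.sum_comp Fin.revPerm]
  refine Finset.sum_congr rfl fun k _ => ?_
  rw [tt_apply, tt_apply, map_mul, Fin.revPerm_apply]
  have h : ((-1 : F)) ^ (i.val + k.val) * (-1) ^ (k.val + j.val) = (-1) ^ (i.val + j.val) := by
    rw [← pow_add]
    exact neg_one_pow_eq (by omega)
  rw [← h]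
  ring

lemma tt_tt (hσ : ∀ x, σ (σ x) = x) (A : Matrix (Fin (m + 1)) (Fin (m + 1)) F) :
    tt σ (tt σ A) = A := by
  ext i j
  rw [tt_apply, tt_apply, map_mul, hσ, Fin.rev_rev, Fin.rev_rev, ← mul_assoc, map_pow, map_neg,
    map_one, ← pow_add]
  have h1 := rev_val i
  have h2 := rev_val j
  have h : (i.val + j.val + ((Fin.rev j).val + (Fin.rev i).val)) = m + m := by omega
  rw [h, sg_sq, one_mul]

lemma det_tt (A : Matrix (Fin (m + 1)) (Fin (m + 1)) F) : (tt σ A).det = σ A.det := by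
  have h1 : tt σ A = Matrix.of fun i j => (fun i : Fin (m + 1) => ((-1 : F)) ^ i.val) i *
      (Matrix.of fun i j => (fun j : Fin (m + 1) => ((-1 : F)) ^ j.val) j *
        (((A.map σ)ᵀ).submatrix Fin.revPerm Fin.revPerm) i j) i j := by
    ext i j
    rw [tt_apply, pow_add]
    simp only [Matrix.of_apply, Matrix.submatrix_apply, Matrix.transpose_apply, Matrix.map_apply,
      Fin.revPerm_apply]
    ring
  rw [h1, Matrix.det_mul_column, Matrix.det_mul_row, Matrix.det_submatrix_equiv_self,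
    Matrix.det_transpose, ← mul_assoc, ← Finset.prod_mul_distrib]
  have h2 : ∏ i : Fin (m + 1), ((-1 : F)) ^ i.val * (-1) ^ i.val = 1 :=
    Finset.prod_eq_one fun i _ => by rw [← pow_add, sg_sq]
  rw [h2, one_mul]
  exact (RingEquiv.map_det σ A).symm

/-- the graph-field automorphism -/
def th : SLm m F →* SLm m F where
  toFun A := ⟨tt σ (A⁻¹).1, by rw [det_tt, (A⁻¹).2, map_one]⟩
  map_one' := by
    apply Subtype.ext
    change tt σ (1⁻¹ : SLm m F).1 = (1 : SLm m F).1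
    rw [inv_one, SpecialLinearGroup.coe_one, tt_one]
  map_mul' A B := by
    apply Subtype.ext
    change tt σ ((A * B)⁻¹).1 = tt σ (A⁻¹).1 * tt σ (B⁻¹).1
    rw [_root_.mul_inv_rev, SpecialLinearGroup.coe_mul, tt_mul]

lemma th_coe (A : SLm m F) : (th σ A).1 = tt σ (A⁻¹).1 := rfl

lemma th_apply (A : SLm m F) (i j : Fin (m + 1)) :
    (th σ A).1 i j = (-1) ^ (i.val + j.val) * σ ((A⁻¹).1 (Fin.rev j) (Fin.rev i)) := rfl

lemma th_th (hσ : ∀ x, σ (σ x) = x) (A : SLm m F) : th σ (th σ A) = A := by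
  apply Subtype.ext
  rw [th_coe, ← map_inv, th_coe, inv_inv, tt_tt σ hσ]

lemma mem_GJ_iff {A : SLm m F} : A ∈ GJ (m + 1) σ ↔ th σ A = A := by
  have hJ : ∀ (B : SLm m F) (i j : Fin (m + 1)), ((B.1.map σ)ᵀ * JJ (m + 1) F) i j =
      (-1) ^ (Fin.rev j).val * σ (B.1 (Fin.rev j) i) := by
    intro B i j
    rw [Matrix.mul_apply, Finset.sum_eq_single (Fin.rev j)]
    · rw [JJ, Matrix.of_apply, if_pos (Fin.rev_rev j).symm, Matrix.transpose_apply,
        Matrix.map_apply, mul_comm]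
    · intro k _ hk
      rw [JJ, Matrix.of_apply, if_neg, mul_zero]
      intro h
      apply hk
      rw [h, Fin.rev_rev]
    · intro h
      exact absurd (Finset.mem_univ _) h
  have hJ' : ∀ (M : Matrix (Fin (m + 1)) (Fin (m + 1)) F) (i j : Fin (m + 1)),
      (JJ (m + 1) F * M) i j = (-1) ^ i.val * M (Fin.rev i) j := by
    intro M i j
    rw [Matrix.mul_apply, Finset.sum_eq_single (Fin.rev i)]
    · rw [JJ, Matrix.of_apply, if_pos rfl]
    · intro k _ hk
      rw [JJ, Matrix.of_apply, if_neg hk, zero_mul]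
    · intro h
      exact absurd (Finset.mem_univ _) h
  have key : A ∈ GJ (m + 1) σ ↔ (A.1.map σ)ᵀ * JJ (m + 1) F = JJ (m + 1) F * (A⁻¹).1 := by
    have h0 : A.1 * (A⁻¹).1 = 1 := by
      rw [← SpecialLinearGroup.coe_mul, mul_inv_cancel, SpecialLinearGroup.coe_one]
    have h0' : (A⁻¹).1 * A.1 = 1 := by
      rw [← SpecialLinearGroup.coe_mul, inv_mul_cancel, SpecialLinearGroup.coe_one]
    constructor
    · intro (h : (A.1.map σ)ᵀ * JJ (m + 1) F * A.1 = JJ (m + 1) F)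
      calc (A.1.map σ)ᵀ * JJ (m + 1) F = (A.1.map σ)ᵀ * JJ (m + 1) F * (A.1 * (A⁻¹).1) := by
            rw [h0, Matrix.mul_one]
        _ = (A.1.map σ)ᵀ * JJ (m + 1) F * A.1 * (A⁻¹).1 := by simp only [Matrix.mul_assoc]
        _ = _ := by rw [h]
    · intro h
      change (A.1.map σ)ᵀ * JJ (m + 1) F * A.1 = JJ (m + 1) F
      rw [h, Matrix.mul_assoc, h0', Matrix.mul_one]
  rw [key]
  constructor
  · intro h
    have h1 : th σ A⁻¹ = A⁻¹ := by
      refine sl_ext fun i j => ?_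
      rw [th_apply, inv_inv]
      have h2 := congrFun (congrFun h (Fin.rev i)) j
      rw [hJ, hJ', Fin.rev_rev] at h2
      have e1 := rev_val i
      have e2 := rev_val j
      have e3 : ((-1 : F)) ^ (i.val + j.val) = (-1) ^ (Fin.rev i).val * (-1) ^ (Fin.rev j).val := by
        rw [← pow_add]
        exact neg_one_pow_eq (by omega)
      rw [e3, mul_assoc, h2, ← mul_assoc, ← pow_add, sg_sq, one_mul]
    rw [map_inv] at h1
    exact inv_injective h1
  · intro h
    have h1 : th σ A⁻¹ = A⁻¹ := by rw [map_inv, h]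
    ext i j
    rw [hJ, hJ']
    have h2 : (th σ A⁻¹).1 (Fin.rev i) j = (A⁻¹).1 (Fin.rev i) j := by rw [h1]
    rw [th_apply, inv_inv, Fin.rev_rev] at h2
    rw [← h2, ← mul_assoc, ← pow_add]
    congr 1
    have e1 := rev_val i
    have e2 := rev_val j
    exact neg_one_pow_eq (by omega)

/-- conjugation by the reversal -/
def rv (w : Equiv.Perm (Fin (m + 1))) : Equiv.Perm (Fin (m + 1)) := Fin.revPerm * w * Fin.revPerm

lemma rv_apply (w : Equiv.Perm (Fin (m + 1))) (x : Fin (m + 1)) : rv w x = Fin.rev (w (Fin.rev x)) :=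
  rfl

/-- `w` commutes with the reversal -/
def Cr (w : Equiv.Perm (Fin (m + 1))) : Prop := rv w = w

lemma Cr.rev {w : Equiv.Perm (Fin (m + 1))} (h : Cr w) (x : Fin (m + 1)) :
    w (Fin.rev x) = Fin.rev (w x) := by
  have h1 := congrArg (fun v : Equiv.Perm (Fin (m + 1)) => v x) h
  simp only [rv_apply] at h1
  rw [← h1, Fin.rev_rev]

lemma cr_of {w : Equiv.Perm (Fin (m + 1))} (h : ∀ x, w (Fin.rev x) = Fin.rev (w x)) : Cr w := by
  ext x
  rw [rv_apply, h, Fin.rev_rev]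

lemma cr_one : Cr (1 : Equiv.Perm (Fin (m + 1))) := cr_of fun _ => rfl

lemma Cr.mul {w v : Equiv.Perm (Fin (m + 1))} (hw : Cr w) (hv : Cr v) : Cr (w * v) :=
  cr_of fun x => by rw [Equiv.Perm.mul_apply, Equiv.Perm.mul_apply, hv.rev, hw.rev]

lemma Cr.inv {w : Equiv.Perm (Fin (m + 1))} (hw : Cr w) : Cr w⁻¹ := by
  refine cr_of fun x => ?_
  apply w.injective
  have h1 : ∀ y, w (w⁻¹ y) = y := fun y => Equiv.apply_symm_apply w y
  rw [h1, hw.rev, h1]

end

section
variable {F : Type*} [Field F] [Finite F] {m : ℕ} (σ : F ≃+* F)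

lemma mon_th {A : SLm m F} {w : Equiv.Perm (Fin (m + 1))} (h : Mon A w) : Mon (th σ A) (rv w) := by
  intro i j hij
  rw [th_apply] at hij
  have h1 : (A⁻¹).1 (Fin.rev j) (Fin.rev i) ≠ 0 := by
    intro h0
    apply hij
    rw [h0, map_zero, mul_zero]
  have h2 := mon_inv h _ _ h1
  rw [rv_apply]
  have h3 : w (Fin.rev j) = Fin.rev i := by rw [h2]; exact Equiv.apply_symm_apply w _
  rw [h3, Fin.rev_rev]

lemma mon_cr {A : SLm m F} {w : Equiv.Perm (Fin (m + 1))} (h : Mon A w) (hA : th σ A = A) :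
    Cr w := by
  have h1 := mon_th σ h
  rw [hA] at h1
  exact mon_unique h1 h

lemma up_th {A : SLm m F} (h : IsUp A) : IsUp (th σ A) := by
  intro i j hij
  have h1 : IsUp A⁻¹ := inv_mem (mem_BU.2 h)
  rw [th_apply, h1 _ _ (Fin.rev_lt_rev.2 hij), map_zero, mul_zero]

lemma uu_th {A : SLm m F} (h : A ∈ UU m F) : th σ A ∈ UU m F := by
  refine ⟨up_th σ h.1, fun i => ?_⟩
  rw [th_apply, up_inv_diag h.1, h.2, inv_one, map_one, mul_one, sg_sq]

/-- lower triangular -/
def IsLo (A : SLm m F) : Prop := ∀ i j, i < j → A.1 i j = 0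

lemma lo_mul {A B : SLm m F} (hA : IsLo A) (hB : IsLo B) : IsLo (A * B) := by
  intro i j hij
  rw [sl_mul]
  refine Finset.sum_eq_zero fun k _ => ?_
  rcases lt_or_ge i k with h | h
  · rw [hA i k h, zero_mul]
  · rw [hB k j (lt_of_le_of_lt h hij), mul_zero]

lemma lo_one : IsLo (1 : SLm m F) := by
  intro i j hij
  rw [sl_one, if_neg hij.ne]

/-- lower triangular matrices -/
def LU (m : ℕ) (F : Type*) [Field F] [Finite F] : Subgroup (SLm m F) :=
  sgp IsLo lo_one fun _ _ => lo_mul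

lemma mem_LU {A : SLm m F} : A ∈ LU m F ↔ IsLo A := Iff.rfl

lemma lo_th {A : SLm m F} (h : IsLo A) : IsLo (th σ A) := by
  intro i j hij
  have h1 : IsLo A⁻¹ := inv_mem (mem_LU.2 h)
  rw [th_apply, h1 _ _ (Fin.rev_lt_rev.2 hij), map_zero, mul_zero]

end

end Vale.Agent.P240.R2.H487.CG
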