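import Vale.Agent.P240.H195.SL6
import Vale.Agent.P240.R2.H487.CG.A1

/-!
Permutations commuting with the reversal.
-/

set_option autoImplicit false
set_option linter.all false

namespace Vale.Agent.P240.R2.H487.CG

open Subgroup Matrix Vale.Agent.P240.H195

section
variable {m : ℕ}

/-- the generating involutions of the centralizer of the reversal -/
inductive Typ : Equiv.Perm (Fin (m + 1)) → Prop
  | AB (i : Fin m) (h1 : 2 * i.val + 1 ≤ m) (h2 : m ≤ 2 * i.val + 2) :
      Typ (Equiv.swap i.castSucc (Fin.rev i.castSucc))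
  | C (i : Fin m) (h : 2 * i.val + 2 < m) : Typ (sw i * sw (Fin.rev i))

lemma rev_castSucc' (i : Fin m) : Fin.rev i.castSucc = (Fin.rev i).succ := Fin.rev_castSucc i

lemma rev_succ' (i : Fin m) : Fin.rev i.succ = (Fin.rev i).castSucc := Fin.rev_succ i

lemma cr_swap_rev (x : Fin (m + 1)) : Cr (Equiv.swap x (Fin.rev x)) := by
  refine cr_of fun y => ?_
  rw [Equiv.swap_apply_def, Equiv.swap_apply_def]
  by_cases h1 : y = x
  · subst h1
    by_cases h2 : Fin.rev y = y
    · simp [h2]
    · simp [h2]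
  · by_cases h2 : y = Fin.rev x
    · subst h2
      rw [Fin.rev_rev, if_pos rfl, if_neg h1, if_pos rfl]
    · rw [if_neg h1, if_neg h2, if_neg, if_neg]
      · exact fun h => h1 (Fin.rev_injective h)
      · intro h
        apply h2
        rw [← h, Fin.rev_rev]

lemma rv_sw (i : Fin m) : rv (sw i) = sw (Fin.rev i) := by
  ext x
  rw [rv_apply]
  simp only [sw]
  rw [Equiv.swap_apply_def, Equiv.swap_apply_def]
  have e1 : (Fin.rev x = i.castSucc) ↔ x = (Fin.rev i).succ := by
    rw [← rev_castSucc']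
    constructor
    · intro h; rw [← h, Fin.rev_rev]
    · intro h; rw [h, Fin.rev_rev]
  have e2 : (Fin.rev x = i.succ) ↔ x = (Fin.rev i).castSucc := by
    rw [← rev_succ']
    constructor
    · intro h; rw [← h, Fin.rev_rev]
    · intro h; rw [h, Fin.rev_rev]
  by_cases h1 : Fin.rev x = i.castSucc
  · have h2 : x = (Fin.rev i).succ := e1.1 h1
    have h3 : x ≠ (Fin.rev i).castSucc := by
      rw [h2]; exact (cs_ne _).symm
    rw [if_pos h1, if_neg h3, if_pos h2, rev_succ']
  · have h1' : x ≠ (Fin.rev i).succ := fun h => h1 (e1.2 h)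
    by_cases h2 : Fin.rev x = i.succ
    · rw [if_neg h1, if_pos h2, if_pos (e2.1 h2), rev_castSucc']
    · rw [if_neg h1, if_neg h2, if_neg fun h => h2 (e2.2 h), if_neg h1', Fin.rev_rev]

lemma rv_mul (w v : Equiv.Perm (Fin (m + 1))) : rv (w * v) = rv w * rv v := by
  ext x
  rw [Equiv.Perm.mul_apply, rv_apply, rv_apply, rv_apply, Fin.rev_rev, Equiv.Perm.mul_apply]

lemma sw_comm {i j : Fin m} (h : i.val + 1 < j.val) : sw i * sw j = sw j * sw i := by
  have h1 : Equiv.Perm.Disjoint (sw i) (sw j) := by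
    intro x
    by_cases hx : x = i.castSucc ∨ x = i.succ
    · right
      refine Equiv.swap_apply_of_ne_of_ne ?_ ?_
      · rcases hx with rfl | rfl <;> rw [Ne, Fin.ext_iff] <;>
          simp only [Fin.val_castSucc, Fin.val_succ] <;> omega
      · rcases hx with rfl | rfl <;> rw [Ne, Fin.ext_iff] <;>
          simp only [Fin.val_castSucc, Fin.val_succ] <;> omega
    · left
      push Not at hx
      exact Equiv.swap_apply_of_ne_of_ne hx.1 hx.2
  exact h1.commute

lemma Typ.cr {τ : Equiv.Perm (Fin (m + 1))} (h : Typ τ) : Cr τ := by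
  rcases h with ⟨i, h1, h2⟩ | ⟨i, h⟩
  · exact cr_swap_rev _
  · change rv _ = _
    rw [rv_mul, rv_sw, rv_sw, Fin.rev_rev]
    refine (sw_comm ?_).symm
    rw [Fin.val_rev]
    omega

lemma Typ.sq {τ : Equiv.Perm (Fin (m + 1))} (h : Typ τ) : τ * τ = 1 := by
  rcases h with ⟨i, h1, h2⟩ | ⟨i, h⟩
  · exact Equiv.swap_mul_self _ _
  · have h1 : sw i * sw (Fin.rev i) = sw (Fin.rev i) * sw i := by
      refine sw_comm ?_
      rw [Fin.val_rev]
      omega
    calc sw i * sw (Fin.rev i) * (sw i * sw (Fin.rev i))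
        = sw i * (sw (Fin.rev i) * sw i) * sw (Fin.rev i) := by group
      _ = (sw i * sw i) * (sw (Fin.rev i) * sw (Fin.rev i)) := by rw [← h1]; group
      _ = 1 := by rw [Equiv.swap_mul_self, Equiv.swap_mul_self, one_mul]

/-- the measure -/
def fw (w : Equiv.Perm (Fin (m + 1))) : ℤ := ∑ x : Fin (m + 1), (x.val : ℤ) * ((w x).val : ℤ)

lemma fw_le (w : Equiv.Perm (Fin (m + 1))) : fw w ≤ ∑ x : Fin (m + 1), (m : ℤ) * m := by
  refine Finset.sum_le_sum fun x _ => ?_
  have h1 : (x.val : ℤ) ≤ m := by have := x.2; omega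
  have h2 : ((w x).val : ℤ) ≤ m := by have := (w x).2; omega
  exact mul_le_mul h1 h2 (Int.natCast_nonneg _) (Int.natCast_nonneg _)

lemma fw_swap (w : Equiv.Perm (Fin (m + 1))) {x y : Fin (m + 1)} (h : x ≠ y) :
    fw (w * Equiv.swap x y) =
      fw w + ((y.val : ℤ) - x.val) * (((w x).val : ℤ) - (w y).val) := by
  have h1 : fw (w * Equiv.swap x y) - fw w =
      ∑ z : Fin (m + 1), (z.val : ℤ) * (((w (Equiv.swap x y z)).val : ℤ) - (w z).val) := by
    rw [fw, fw, ← Finset.sum_sub_distrib]
    refine Finset.sum_congr rfl fun z _ => ?_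
    rw [Equiv.Perm.mul_apply]
    ring
  rw [Finset.sum_eq_add x y h] at h1
  · rw [Equiv.swap_apply_left, Equiv.swap_apply_right] at h1
    linarith
  · intro z _ hz
    rw [Equiv.swap_apply_of_ne_of_ne hz.1 hz.2, sub_self, mul_zero]
  · intro hx
    exact absurd (Finset.mem_univ _) hx
  · intro hx
    exact absurd (Finset.mem_univ _) hx

lemma exists_descent {w : Equiv.Perm (Fin (m + 1))} (h : w ≠ 1) :
    ∃ i : Fin m, w i.succ < w i.castSucc := by
  by_contra hcon
  push Not at hcon
  apply h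
  have hmono : StrictMono w := by
    rw [Fin.strictMono_iff_lt_succ]
    intro i
    exact lt_of_le_of_ne (hcon i) fun h1 => cs_ne i (w.injective h1)
  have hid := (StrictMono.range_inj hmono strictMono_id).1 (by
    rw [Set.range_id, Set.range_eq_univ]
    exact w.surjective)
  ext x
  rw [congrFun hid x]
  rfl

lemma exists_descent' {w : Equiv.Perm (Fin (m + 1))} (h : w ≠ 1) (hc : Cr w) :
    ∃ i : Fin m, 2 * i.val + 1 ≤ m ∧ w i.succ < w i.castSucc ∧
      w (Fin.rev i).succ < w (Fin.rev i).castSucc := by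
  obtain ⟨i, hi⟩ := exists_descent h
  have h1 : w (Fin.rev i).succ < w (Fin.rev i).castSucc := by
    rw [← rev_castSucc', ← rev_succ', hc.rev, hc.rev, Fin.rev_lt_rev]
    exact hi
  by_cases h2 : 2 * i.val + 1 ≤ m
  · exact ⟨i, h2, hi, h1⟩
  · refine ⟨Fin.rev i, ?_, h1, by rw [Fin.rev_rev]; exact hi⟩
    rw [Fin.val_rev]
    omega

lemma exists_typ {w : Equiv.Perm (Fin (m + 1))} (h : w ≠ 1) (hc : Cr w) :
    ∃ τ, Typ τ ∧ fw w < fw (w * τ) := by
  obtain ⟨i, hi, h1, h2⟩ := exists_descent' h hc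
  rw [Fin.lt_def] at h1 h2
  by_cases h3 : 2 * i.val + 2 < m
  · refine ⟨_, Typ.C i h3, ?_⟩
    have hr : (Fin.rev i).val = m - (i.val + 1) := Fin.val_rev i
    rw [← mul_assoc, fw_swap _ (cs_ne _), fw_swap _ (cs_ne _), Equiv.Perm.mul_apply,
      Equiv.Perm.mul_apply, Equiv.swap_apply_of_ne_of_ne, Equiv.swap_apply_of_ne_of_ne]
    · simp only [Fin.val_castSucc, Fin.val_succ]
      push_cast
      have h1' : ((w i.succ).val : ℤ) < ((w i.castSucc).val : ℤ) := by exact_mod_cast h1
      have h2' : ((w (Fin.rev i).succ).val : ℤ) < ((w (Fin.rev i).castSucc).val : ℤ) := by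
        exact_mod_cast h2
      linarith
    · rw [Ne, Fin.ext_iff]; simp only [Fin.val_castSucc, Fin.val_succ]; omega
    · rw [Ne, Fin.ext_iff]; simp only [Fin.val_castSucc, Fin.val_succ]; omega
    · rw [Ne, Fin.ext_iff]; simp only [Fin.val_castSucc, Fin.val_succ]; omega
    · rw [Ne, Fin.ext_iff]; simp only [Fin.val_castSucc, Fin.val_succ]; omega
  · refine ⟨_, Typ.AB i hi (by omega), ?_⟩
    have hv : (Fin.rev i.castSucc).val + i.val = m := rev_val i.castSucc
    rw [fw_swap _ (by rw [Ne, Fin.ext_iff, Fin.val_castSucc]; omega)]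
    have h4 : (w (Fin.rev i.castSucc)).val < (w i.castSucc).val := by
      by_cases h5 : 2 * i.val + 1 = m
      · have : Fin.rev i.castSucc = i.succ := by
          rw [Fin.ext_iff, Fin.val_succ]
          omega
        rw [this]
        exact h1
      · have h6 : (Fin.rev i).castSucc = i.succ := by
          rw [Fin.ext_iff, Fin.val_castSucc, Fin.val_succ, Fin.val_rev]
          omega
        rw [rev_castSucc']
        rw [h6] at h2
        omega
    have h5 : (i.castSucc.val : ℤ) < ((Fin.rev i.castSucc).val : ℤ) := by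
      rw [Fin.val_castSucc]
      omega
    have h6 : ((w (Fin.rev i.castSucc)).val : ℤ) < ((w i.castSucc).val : ℤ) := by exact_mod_cast h4
    have := mul_pos (sub_pos.2 h5) (sub_pos.2 h6)
    linarith

/-- induction for permutations commuting with the reversal -/
theorem cr_ind {P : Equiv.Perm (Fin (m + 1)) → Prop} (h1 : P 1)
    (hs : ∀ w τ, Cr w → Typ τ → P (w * τ) → P w) : ∀ w, Cr w → P w := by
  have key : ∀ (k : ℕ) (w : Equiv.Perm (Fin (m + 1))), Cr w →
      (∑ x : Fin (m + 1), (m : ℤ) * m) - fw w < k → P w := by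
    intro k
    induction k with
    | zero =>
      intro w _ hw
      have := fw_le w
      push_cast at hw
      omega
    | succ k ih =>
      intro w hc hw
      by_cases h : w = 1
      · rw [h]; exact h1
      · obtain ⟨τ, hτ, hlt⟩ := exists_typ h hc
        refine hs w τ hc hτ (ih _ (hc.mul hτ.cr) ?_)
        push_cast at hw
        omega
  intro w hw
  obtain ⟨k, hk⟩ := Int.eq_ofNat_of_zero_le (a := (∑ x : Fin (m + 1), (m : ℤ) * m) - fw w)
    (by have := fw_le w; omega)
  exact key (k + 1) w hw (by rw [hk]; push_cast; omega)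

end

end Vale.Agent.P240.R2.H487.CG
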