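import Vale.Agent.P240.R2.H487.CG.A2

/-!
Monomial matrices fixed by the graph-field automorphism.
-/

set_option autoImplicit false
set_option linter.all false

namespace Vale.Agent.P240.R2.H487.CG

open Subgroup Matrix Vale.Agent.P240.H195

section
variable {F : Type*} [Field F] {m : ℕ} (σ : F ≃+* F)

lemma rev_ne {a b : Fin (m + 1)} (h : a ≠ b) : Fin.rev b ≠ Fin.rev a :=
  fun h1 => h (Fin.rev_injective h1).symm

lemma tx_congr {a b a' b' : Fin (m + 1)} {h : a ≠ b} {h' : a' ≠ b'} {c c' : F} (ha : a = a')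
    (hb : b = b') (hc : c = c') : tx h c = tx h' c' := by
  subst ha hb hc
  rfl

lemma th_tx {a b : Fin (m + 1)} (h : a ≠ b) (c : F) :
    th σ (tx h c) = tx (rev_ne h) (-((-1) ^ (a.val + b.val) * σ c)) := by
  refine sl_ext fun i j => ?_
  rw [th_apply, tx_inv, tx_apply, tx_apply]
  by_cases hij : i = j
  · subst hij
    have h1 : ¬ (Fin.rev i = a ∧ Fin.rev i = b) := fun h2 => h (h2.1.symm.trans h2.2)
    have h2 : ¬ (i = Fin.rev b ∧ i = Fin.rev a) := fun h2 => rev_ne h (h2.1.symm.trans h2.2)
    rw [if_pos rfl, if_neg h1, if_pos rfl, if_neg h2, add_zero, map_one, mul_one, sg_sq]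
  · rw [if_neg (fun h1 => hij (Fin.rev_injective h1).symm), if_neg hij, zero_add, zero_add]
    by_cases h1 : Fin.rev j = a ∧ Fin.rev i = b
    · have h2 : i = Fin.rev b ∧ j = Fin.rev a := by
        rw [← h1.1, ← h1.2, Fin.rev_rev, Fin.rev_rev]
        exact ⟨rfl, rfl⟩
      rw [if_pos h1, if_pos h2, map_neg, mul_neg]
      congr 2
      have e1 := rev_val j
      have e2 := rev_val i
      rw [h1.1] at e1
      rw [h1.2] at e2
      exact neg_one_pow_eq (by omega)
    · have h2 : ¬ (i = Fin.rev b ∧ j = Fin.rev a) := by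
        rintro ⟨h3, h4⟩
        apply h1
        rw [h3, h4, Fin.rev_rev, Fin.rev_rev]
        exact ⟨rfl, rfl⟩
      rw [if_neg h1, if_neg h2, map_zero, mul_zero]

lemma tx_comm' {a b a' b' : Fin (m + 1)} (h : a ≠ b) (h' : a' ≠ b') (h1 : b ≠ a') (h2 : b' ≠ a)
    (c d : F) : tx h c * tx h' d = tx h' d * tx h c := by
  refine sl_ext fun i j => ?_
  rw [tx_mul_apply, tx_mul_apply, tx_apply, tx_apply, tx_apply, tx_apply]
  have e1 : ¬ (b = a' ∧ j = b') := fun h3 => h1 h3.1
  have e2 : ¬ (b' = a ∧ j = b) := fun h3 => h2 h3.1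
  rw [if_neg e1, if_neg e2]
  by_cases hi : i = a <;> by_cases hi' : i = a' <;> by_cases hj : j = b <;>
    by_cases hj' : j = b' <;> simp [hi, hi', hj, hj', eq_comm] <;> try ring_nf
  all_goals (try (split_ifs <;> simp_all))

/-- Weyl elements -/
def wg {a b : Fin (m + 1)} (h : a ≠ b) : SLm m F := tx h (-1) * (tx h.symm 1 * tx h (-1))

lemma mon_wg {a b : Fin (m + 1)} (h : a ≠ b) : Mon (wg h : SLm m F) (Equiv.swap a b) := by
  have h1 := rank_one (F := F) h (c := 1) one_ne_zero
  rw [inv_one] at h1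
  exact h1

lemma wg_comm {a b a' b' : Fin (m + 1)} (h : a ≠ b) (h' : a' ≠ b') (h1 : a ≠ a') (h2 : a ≠ b')
    (h3 : b ≠ a') (h4 : b ≠ b') : (wg h * wg h' : SLm m F) = wg h' * wg h := by
  have e1 : ∀ c d : F, Commute (tx h c) (tx h' d) := fun c d => tx_comm' h h' h3 h2.symm c d
  have e2 : ∀ c d : F, Commute (tx h.symm c) (tx h' d) := fun c d => tx_comm' h.symm h' h1 h4.symm c d
  have e3 : ∀ c d : F, Commute (tx h c) (tx h'.symm d) := fun c d => tx_comm' h h'.symm h4 h1.symm c d
  have e4 : ∀ c d : F, Commute (tx h.symm c) (tx h'.symm d) :=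
    fun c d => tx_comm' h.symm h'.symm h2 h3.symm c d
  have : Commute (wg h : SLm m F) (wg h') := by
    unfold wg
    refine Commute.mul_left ?_ (Commute.mul_left ?_ ?_)
    · exact Commute.mul_right (e1 _ _) (Commute.mul_right (e3 _ _) (e1 _ _))
    · exact Commute.mul_right (e2 _ _) (Commute.mul_right (e4 _ _) (e2 _ _))
    · exact Commute.mul_right (e1 _ _) (Commute.mul_right (e3 _ _) (e1 _ _))
  exact this

lemma th_wg {a b : Fin (m + 1)} (h : a ≠ b) (hab : (a.val + b.val) % 2 = 1) :
    th σ (wg h) = wg (rev_ne h) := by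
  have hs : ((-1 : F)) ^ (a.val + b.val) = -1 := Odd.neg_one_pow (Nat.odd_iff.2 hab)
  have hs' : ((-1 : F)) ^ (b.val + a.val) = -1 := by rw [add_comm]; exact hs
  unfold wg
  rw [map_mul, map_mul, th_tx, th_tx, hs, hs', map_neg, map_one]
  congr 1
  · exact tx_congr rfl rfl (by ring)
  · congr 1
    · exact tx_congr rfl rfl (by ring)
    · exact tx_congr rfl rfl (by ring)

lemma wg_congr {a b a' b' : Fin (m + 1)} {h : a ≠ b} {h' : a' ≠ b'} (ha : a = a') (hb : b = b') :
    (wg h : SLm m F) = wg h' := by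
  subst ha hb
  rfl

/-- a fixed element for the middle of an odd diagram -/
lemma exists_mid {x z : Fin (m + 1)} (hx : x ≠ Fin.rev x) (hz : Fin.rev z = z) (hm : m % 2 = 0) :
    ∃ s : SLm m F, th σ s = s ∧ Mon s (Equiv.swap x (Fin.rev x)) := by
  classical
  have hzx : z ≠ x := by
    rintro rfl
    exact hx hz.symm
  have hzx' : z ≠ Fin.rev x := by
    intro h
    apply hzx
    rw [← hz, h, Fin.rev_rev]
  let D : Fin (m + 1) → F := fun j => if j = z then -1 else 1
  have hent : ∀ a b, ((Equiv.swap x (Fin.rev x)).permMatrix F * Matrix.diagonal D) a b =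
      if a = Equiv.swap x (Fin.rev x) b then D b else 0 := by
    intro a b
    rw [Matrix.mul_diagonal, Equiv.Perm.permMatrix, PEquiv.toMatrix_apply]
    have h1 : (b ∈ Equiv.toPEquiv (Equiv.swap x (Fin.rev x)) a) ↔
        a = Equiv.swap x (Fin.rev x) b := by
      rw [Equiv.toPEquiv_apply, Option.mem_some_iff]
      constructor
      · intro h; rw [← h, Equiv.swap_apply_self]
      · intro h; rw [h, Equiv.swap_apply_self]
    by_cases h2 : a = Equiv.swap x (Fin.rev x) b
    · rw [if_pos (h1.2 h2), if_pos h2, one_mul]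
    · rw [if_neg (fun h => h2 (h1.1 h)), if_neg h2, zero_mul]
  have hdet : ((Equiv.swap x (Fin.rev x)).permMatrix F * Matrix.diagonal D).det = 1 := by
    rw [Matrix.det_mul, Matrix.det_permutation, Matrix.det_diagonal, Equiv.Perm.sign_swap hx,
      Finset.prod_ite_eq' Finset.univ z (fun _ => (-1 : F)), if_pos (Finset.mem_univ _)]
    simp
  set s : SLm m F := ⟨_, hdet⟩ with hs
  have hs1 : ∀ a b, s.1 a b = if a = Equiv.swap x (Fin.rev x) b then D b else 0 := hent
  have hD : ∀ a, D (Equiv.swap x (Fin.rev x) a) = D a := by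
    intro a
    by_cases ha : a = z
    · rw [ha, Equiv.swap_apply_of_ne_of_ne hzx hzx']
    · have : Equiv.swap x (Fin.rev x) a ≠ z := by
        intro h
        apply ha
        rw [← Equiv.swap_apply_self x (Fin.rev x) a, h, Equiv.swap_apply_of_ne_of_ne hzx hzx']
      change (if _ then _ else _) = (if _ then _ else _)
      rw [if_neg this, if_neg ha]
  have hDD : ∀ a, D a * D a = 1 := by
    intro a
    change (if _ then _ else _) * (if _ then _ else _) = (1 : F)
    split_ifs <;> ring
  have hss : s * s = 1 := by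
    refine sl_ext fun a b => ?_
    rw [sl_mul, Finset.sum_eq_single (Equiv.swap x (Fin.rev x) b)]
    · rw [hs1, hs1, if_pos rfl, Equiv.swap_apply_self, sl_one, hD]
      by_cases h : a = b
      · rw [if_pos h, if_pos h, hDD]
      · rw [if_neg h, if_neg h, zero_mul]
    · intro k _ hk
      rw [hs1 k b, if_neg hk, mul_zero]
    · intro h
      exact absurd (Finset.mem_univ _) h
  have hinv : s⁻¹ = s := by
    rw [inv_eq_iff_mul_eq_one]
    exact hss
  refine ⟨s, ?_, ?_⟩
  · refine sl_ext fun i j => ?_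
    rw [th_apply, hinv, hs1, hs1]
    have hc := (cr_swap_rev x).rev
    by_cases h : i = Equiv.swap x (Fin.rev x) j
    · have h1 : Fin.rev j = Equiv.swap x (Fin.rev x) (Fin.rev i) := by
        rw [h, ← hc, Equiv.swap_apply_self]
      have hDr : D (Fin.rev i) = D j := by
        have e : D (Fin.rev i) = D i := by
          change (if _ then _ else _) = (if _ then _ else _)
          by_cases hi : i = z
          · rw [hi, hz]
          · rw [if_neg hi, if_neg]
            intro h2
            apply hi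
            rw [← hz, ← h2, Fin.rev_rev]
        rw [e, h, hD]
      rw [if_pos h, if_pos h1, hDr]
      have hσD : σ (D j) = D j := by
        change σ (if _ then _ else _) = (if _ then _ else _)
        split_ifs
        · rw [map_neg, map_one]
        · rw [map_one]
      rw [hσD]
      have hsg : ((-1 : F)) ^ (i.val + j.val) = 1 := by
        refine Even.neg_one_pow (Nat.even_iff.2 ?_)
        have hxr := rev_val x
        rw [h, Equiv.swap_apply_def]
        split_ifs with h2 h3
        · rw [h2]; omega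
        · rw [h3]; omega
        · omega
      rw [hsg, one_mul]
    · have h1 : ¬ Fin.rev j = Equiv.swap x (Fin.rev x) (Fin.rev i) := by
        intro h2
        apply h
        rw [hc] at h2
        have h3 := Fin.rev_injective h2
        rw [h3, Equiv.swap_apply_self]
      rw [if_neg h, if_neg h1, map_zero, mul_zero]
  · intro a b hab
    rw [hs1] at hab
    by_contra hne
    exact hab (if_neg hne)

/-- fixed representatives of the involutions -/
lemma exists_typ_elt {τ : Equiv.Perm (Fin (m + 1))} (h : Typ τ) :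
    ∃ s : SLm m F, th σ s = s ∧ Mon s τ := by
  rcases h with ⟨i, h1, h2⟩ | ⟨i, h⟩
  · have hv : (Fin.rev i.castSucc).val + i.val = m := rev_val i.castSucc
    have hne : i.castSucc ≠ Fin.rev i.castSucc := by
      rw [Ne, Fin.ext_iff, Fin.val_castSucc]
      omega
    by_cases h3 : 2 * i.val + 1 = m
    · refine ⟨wg hne, ?_, mon_wg hne⟩
      rw [th_wg σ hne (by rw [Fin.val_castSucc]; omega)]
      exact wg_congr (Fin.rev_rev _) rfl
    · refine exists_mid σ hne (z := i.succ) ?_ (by omega)
      rw [Fin.ext_iff]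
      have := rev_val i.succ
      rw [Fin.val_succ] at this ⊢
      omega
  · have hr : (Fin.rev i).val = m - (i.val + 1) := Fin.val_rev i
    have e1 : th σ (wg (cs_ne i)) = wg (cs_ne (Fin.rev i)) := by
      rw [th_wg σ (cs_ne i) (by rw [Fin.val_castSucc, Fin.val_succ]; omega)]
      exact wg_congr (rev_succ' i) (rev_castSucc' i)
    have e2 : th σ (wg (cs_ne (Fin.rev i))) = wg (cs_ne i) := by
      rw [th_wg σ (cs_ne _) (by rw [Fin.val_castSucc, Fin.val_succ]; omega)]
      refine wg_congr ?_ ?_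
      · rw [rev_succ', Fin.rev_rev]
      · rw [rev_castSucc', Fin.rev_rev]
    refine ⟨wg (cs_ne i) * wg (cs_ne (Fin.rev i)), ?_, mon_mul (mon_wg _) (mon_wg _)⟩
    rw [map_mul, e1, e2]
    refine (wg_comm _ _ ?_ ?_ ?_ ?_).symm <;>
      rw [Ne, Fin.ext_iff] <;> simp only [Fin.val_castSucc, Fin.val_succ] <;> omega

end

section
variable {F : Type*} [Field F] [Finite F] {m : ℕ} (σ : F ≃+* F)

/-- fixed monomial matrices -/
theorem exists_fix_mon {w : Equiv.Perm (Fin (m + 1))} (hw : Cr w) :
    ∃ s : SLm m F, th σ s = s ∧ Mon s w := by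
  refine cr_ind (P := fun w => ∃ s : SLm m F, th σ s = s ∧ Mon s w) ⟨1, map_one _, mon_one⟩ ?_ w hw
  rintro w τ hw hτ ⟨s, hs, hsw⟩
  obtain ⟨t, ht, htτ⟩ := exists_typ_elt (F := F) σ hτ
  refine ⟨s * t, by rw [map_mul, hs, ht], ?_⟩
  have := mon_mul hsw htτ
  rwa [mul_assoc, hτ.sq, mul_one] at this

end

end Vale.Agent.P240.R2.H487.CG
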