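import Vale.Agent.P240.R2.H487.CG.A3

/-!
Unique factorization in the unitriangular group, and fixed points in double cosets.
-/

set_option autoImplicit false
set_option linter.all false

namespace Vale.Agent.P240.R2.H487.CG

open Subgroup Matrix Vale.Agent.P240.H195

section
variable {F : Type*} [Field F] [Finite F] {m : ℕ}

/-- unitriangular matrices with prescribed nonzero positions -/
def Pat (Ψ : Fin (m + 1) → Fin (m + 1) → Prop) (A : SLm m F) : Prop :=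
  A ∈ UU m F ∧ ∀ i j, i < j → ¬ Ψ i j → A.1 i j = 0

/-- parametrization -/
noncomputable def patEquiv (Ψ : Fin (m + 1) → Fin (m + 1) → Prop) :
    {A : SLm m F // Pat Ψ A} ≃ ({x : Fin (m + 1) × Fin (m + 1) // x.1 < x.2 ∧ Ψ x.1 x.2} → F) := by
  classical
  have hdet : ∀ f : {x : Fin (m + 1) × Fin (m + 1) // x.1 < x.2 ∧ Ψ x.1 x.2} → F,
      (Matrix.of fun i j : Fin (m + 1) => if i = j then (1 : F) else
        if h : i < j ∧ Ψ i j then f ⟨(i, j), h⟩ else 0).det = 1 := by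
    intro f
    rw [Matrix.det_of_isUpperTriangular]
    · exact Finset.prod_eq_one fun i _ => by rw [Matrix.of_apply, if_pos rfl]
    · intro i j (hij : j < i)
      rw [Matrix.of_apply, if_neg hij.ne', dif_neg fun h => lt_asymm h.1 hij]
  refine
    { toFun := fun A x => A.1.1 x.1.1 x.1.2
      invFun := fun f => ⟨⟨_, hdet f⟩, ⟨fun i j hij => ?_, fun i => ?_⟩, fun i j hij hΨ => ?_⟩
      left_inv := ?_
      right_inv := ?_ }
  · change (if _ then _ else _) = _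
    rw [if_neg hij.ne', dif_neg fun h => lt_asymm h.1 hij]
  · change (if _ then _ else _) = _
    rw [if_pos rfl]
  · change (if _ then _ else _) = _
    rw [if_neg hij.ne, dif_neg fun h => hΨ h.2]
  · rintro ⟨A, ⟨hA1, hA2⟩, hA3⟩
    apply Subtype.ext
    refine sl_ext fun i j => ?_
    change (if _ then _ else _) = _
    rcases lt_trichotomy i j with h | h | h
    · rw [if_neg h.ne]
      by_cases hΨ : Ψ i j
      · rw [dif_pos ⟨h, hΨ⟩]
      · rw [dif_neg fun h1 => hΨ h1.2, hA3 i j h hΨ]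
    · subst h
      rw [if_pos rfl, hA2]
    · rw [if_neg h.ne', dif_neg fun h1 => lt_asymm h1.1 h, hA1 i j h]
  · intro f
    funext x
    change (if _ then _ else _) = _
    rw [if_neg x.2.1.ne, dif_pos x.2]

lemma card_pat (Ψ : Fin (m + 1) → Fin (m + 1) → Prop) :
    Nat.card {A : SLm m F // Pat Ψ A} =
      Nat.card F ^ Nat.card {x : Fin (m + 1) × Fin (m + 1) // x.1 < x.2 ∧ Ψ x.1 x.2} := by
  rw [Nat.card_congr (patEquiv Ψ), Nat.card_fun]

lemma lo_up_mon {A : SLm m F} (h1 : IsLo A) (h2 : IsUp A) : Mon A 1 := by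
  intro i j hij
  rw [Equiv.Perm.one_apply]
  rcases lt_trichotomy i j with h | h | h
  · exact absurd (h1 i j h) hij
  · exact h
  · exact absurd (h2 i j h) hij

lemma uu_mon_one {A : SLm m F} (h1 : A ∈ UU m F) (h2 : Mon A 1) : A = 1 := by
  refine sl_ext fun i j => ?_
  rw [sl_one]
  by_cases h : i = j
  · subst h
    rw [if_pos rfl, h1.2]
  · rw [if_neg h, mon_eq h2 (by rw [Equiv.Perm.one_apply]; exact h)]

lemma card_split (Ψ : Fin (m + 1) → Fin (m + 1) → Prop) :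
    Nat.card {x : Fin (m + 1) × Fin (m + 1) // x.1 < x.2 ∧ Ψ x.1 x.2} +
      Nat.card {x : Fin (m + 1) × Fin (m + 1) // x.1 < x.2 ∧ ¬ Ψ x.1 x.2} =
      Nat.card {x : Fin (m + 1) × Fin (m + 1) // x.1 < x.2 ∧ True} := by
  classical
  rw [← Nat.card_sum]
  refine Nat.card_congr ⟨fun z => Sum.elim (fun x => ⟨x.1, x.2.1, trivial⟩)
    (fun x => ⟨x.1, x.2.1, trivial⟩) z, fun x => if h : Ψ x.1.1 x.1.2 then
      Sum.inl ⟨x.1, x.2.1, h⟩ else Sum.inr ⟨x.1, x.2.1, h⟩, ?_, ?_⟩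
  · rintro (⟨x, hx⟩ | ⟨x, hx⟩)
    · exact dif_pos hx.2
    · exact dif_neg hx.2
  · rintro ⟨x, hx⟩
    by_cases h : Ψ x.1 x.2
    · simp only [dif_pos h, Sum.elim_inl]
    · simp only [dif_neg h, Sum.elim_inr]

/-- uniqueness -/
lemma fac_unique {n : SLm m F} {w : Equiv.Perm (Fin (m + 1))} (hn : Mon n w) {X X' Y Y' : SLm m F}
    (hX : X ∈ UU m F) (hX' : X' ∈ UU m F) (hlX : IsLo (n⁻¹ * X * n)) (hlX' : IsLo (n⁻¹ * X' * n))
    (hY : IsUp (n⁻¹ * Y * n)) (hY' : IsUp (n⁻¹ * Y' * n)) (h : X * Y = X' * Y') :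
    X = X' ∧ Y = Y' := by
  have h1 : X'⁻¹ * X = Y' * Y⁻¹ := by
    have : X'⁻¹ * (X * Y) * Y⁻¹ = X'⁻¹ * (X' * Y') * Y⁻¹ := by rw [h]
    calc X'⁻¹ * X = X'⁻¹ * (X * Y) * Y⁻¹ := by group
      _ = X'⁻¹ * (X' * Y') * Y⁻¹ := this
      _ = _ := by group
  set Z := X'⁻¹ * X with hZ
  have hZU : Z ∈ UU m F := mul_mem (inv_mem hX') hX
  have hlo : IsLo (n⁻¹ * Z * n) := by
    have e : n⁻¹ * Z * n = (n⁻¹ * X' * n)⁻¹ * (n⁻¹ * X * n) := by rw [hZ]; group
    rw [e]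
    exact mul_mem (inv_mem (mem_LU.2 hlX')) (mem_LU.2 hlX)
  have hup : IsUp (n⁻¹ * Z * n) := by
    have e : n⁻¹ * Z * n = (n⁻¹ * Y' * n) * (n⁻¹ * Y * n)⁻¹ := by rw [h1]; group
    rw [e]
    exact mul_mem (mem_BU.2 hY') (inv_mem (mem_BU.2 hY))
  have hm := mon_mul (mon_mul hn (lo_up_mon hlo hup)) (mon_inv hn)
  have e : n * (n⁻¹ * Z * n) * n⁻¹ = Z := by group
  rw [e, mul_one, mul_inv_cancel] at hm
  have hZ1 := uu_mon_one hZU hm
  have h2 : X = X' := by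
    rw [hZ, inv_mul_eq_one] at hZ1
    exact hZ1.symm
  refine ⟨h2, ?_⟩
  rw [h2] at h
  exact mul_left_cancel h

lemma pat_lo {n : SLm m F} {w : Equiv.Perm (Fin (m + 1))} (hn : Mon n w) {X : SLm m F}
    (hX : Pat (fun i j => w⁻¹ j < w⁻¹ i) X) : IsLo (n⁻¹ * X * n) := by
  have hn' := mon_inv hn
  intro a b hab
  by_contra hne
  obtain ⟨i, rfl⟩ := (w⁻¹).surjective a
  obtain ⟨j, rfl⟩ := (w⁻¹).surjective b
  have h1 := (mon_conj_ne hn' X i j).1 (by rw [inv_inv]; exact hne)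
  rcases lt_trichotomy i j with h | h | h
  · exact h1 (hX.2 i j h (not_lt.2 hab.le))
  · rw [h] at hab
    exact lt_irrefl _ hab
  · exact h1 (hX.1.1 i j h)

lemma pat_up {n : SLm m F} {w : Equiv.Perm (Fin (m + 1))} (hn : Mon n w) {X : SLm m F}
    (hX : Pat (fun i j => ¬ w⁻¹ j < w⁻¹ i) X) : IsUp (n⁻¹ * X * n) := by
  have hn' := mon_inv hn
  intro a b hab
  by_contra hne
  obtain ⟨i, rfl⟩ := (w⁻¹).surjective a
  obtain ⟨j, rfl⟩ := (w⁻¹).surjective b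
  have h1 := (mon_conj_ne hn' X i j).1 (by rw [inv_inv]; exact hne)
  rcases lt_trichotomy i j with h | h | h
  · exact h1 (hX.2 i j h (not_not.2 hab))
  · rw [h] at hab
    exact lt_irrefl _ hab
  · exact h1 (hX.1.1 i j h)

/-- **factorization** -/
theorem fac_exists {n : SLm m F} {w : Equiv.Perm (Fin (m + 1))} (hn : Mon n w) {A : SLm m F}
    (hA : A ∈ UU m F) : ∃ X ∈ UU m F, ∃ Y ∈ UU m F, A = X * Y ∧ IsLo (n⁻¹ * X * n) ∧
      IsUp (n⁻¹ * Y * n) := by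
  classical
  set Ψ : Fin (m + 1) → Fin (m + 1) → Prop := fun i j => w⁻¹ j < w⁻¹ i with hΨ
  let f : {X : SLm m F // Pat Ψ X} × {Y : SLm m F // Pat (fun i j => ¬ Ψ i j) Y} →
      {A : SLm m F // Pat (fun _ _ => True) A} :=
    fun z => ⟨z.1.1 * z.2.1, mul_mem z.1.2.1 z.2.2.1, fun _ _ _ h => absurd trivial h⟩
  have hinj : Function.Injective f := by
    rintro ⟨⟨X, hX⟩, ⟨Y, hY⟩⟩ ⟨⟨X', hX'⟩, ⟨Y', hY'⟩⟩ h
    have h1 : X * Y = X' * Y' := congrArg Subtype.val h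
    obtain ⟨h2, h3⟩ := fac_unique hn hX.1 hX'.1 (pat_lo hn hX) (pat_lo hn hX') (pat_up hn hY)
      (pat_up hn hY') h1
    subst h2 h3
    rfl
  have hcard : Nat.card ({X : SLm m F // Pat Ψ X} × {Y : SLm m F // Pat (fun i j => ¬ Ψ i j) Y}) =
      Nat.card {A : SLm m F // Pat (fun _ _ => True) A} := by
    rw [Nat.card_prod, card_pat, card_pat, card_pat, ← pow_add]
    congr 1
    exact card_split Ψ
  have hsurj : Function.Surjective f := by
    have : Fintype {X : SLm m F // Pat Ψ X} := Fintype.ofFinite _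
    have : Fintype {Y : SLm m F // Pat (fun i j => ¬ Ψ i j) Y} := Fintype.ofFinite _
    have : Fintype {A : SLm m F // Pat (fun _ _ => True) A} := Fintype.ofFinite _
    rw [Nat.card_eq_fintype_card, Nat.card_eq_fintype_card] at hcard
    exact ((Fintype.bijective_iff_injective_and_card f).2 ⟨hinj, hcard⟩).2
  obtain ⟨⟨⟨X, hX⟩, ⟨Y, hY⟩⟩, hz⟩ := hsurj ⟨A, hA, fun _ _ _ h => absurd trivial h⟩
  exact ⟨X, hX.1, Y, hY.1, (congrArg Subtype.val hz).symm, pat_lo hn hX, pat_up hn hY⟩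

variable (σ : F ≃+* F)

/-- **fixed points in double cosets** -/
theorem fix_DC {p : ℕ} [hp : Fact p.Prime] [CharP F p] (hm : 0 < m) {x n : SLm m F}
    {w : Equiv.Perm (Fin (m + 1))} (hn : Mon n w) (hnf : th σ n = n) (hx : th σ x = x)
    (hd : DC (BU m F) n x) :
    ∃ a ∈ UU m F, th σ a = a ∧ ∃ b ∈ BU m F, th σ b = b ∧ x = a * n * b := by
  obtain ⟨a, ha, b, hb, hab⟩ := hd
  obtain ⟨u, hu, t, htB, htN, rfl⟩ := (sl_SB (p := p) hm).split a ha
  obtain ⟨X, hX, Y, hY, hXY, hlo, hup⟩ := fac_exists hn hu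
  have htM : Mon t 1 := mem_T.1 (mem_inf.2 ⟨htB, htN⟩)
  have ht' : IsUp (n⁻¹ * t * n) := by
    have h1 := mon_mul (mon_mul (mon_inv hn) htM) hn
    rw [mul_one, inv_mul_cancel] at h1
    exact mem_T' h1
  set c := (n⁻¹ * Y * n) * (n⁻¹ * t * n) * b with hc
  have hcB : c ∈ BU m F := mul_mem (mul_mem (mem_BU.2 hup) (mem_BU.2 ht')) hb
  have hxe : x = X * n * c := by
    rw [hab, hXY, hc]
    group
  have hth : X * n * c = th σ X * n * th σ c := by
    have h1 : th σ x = th σ X * th σ n * th σ c := by rw [hxe, map_mul, map_mul]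
    rw [hx, hnf] at h1
    rw [← hxe, h1]
  have hthX := uu_th σ hX
  have hlo' : IsLo (n⁻¹ * th σ X * n) := by
    have h1 : n⁻¹ * th σ X * n = th σ (n⁻¹ * X * n) := by rw [map_mul, map_mul, map_inv, hnf]
    rw [h1]
    exact lo_th σ hlo
  have hcB' : th σ c ∈ BU m F := up_th σ hcB
  -- uniqueness
  have h2 : X * (n * (c * (th σ c)⁻¹) * n⁻¹) = th σ X * 1 := by
    have : X * n * c * (th σ c)⁻¹ * n⁻¹ = th σ X * n * th σ c * (th σ c)⁻¹ * n⁻¹ := by rw [hth]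
    calc X * (n * (c * (th σ c)⁻¹) * n⁻¹) = X * n * c * (th σ c)⁻¹ * n⁻¹ := by group
      _ = th σ X * n * th σ c * (th σ c)⁻¹ * n⁻¹ := this
      _ = _ := by group
  obtain ⟨h3, h4⟩ := fac_unique hn hX hthX hlo hlo' (by
    have e : n⁻¹ * (n * (c * (th σ c)⁻¹) * n⁻¹) * n = c * (th σ c)⁻¹ := by group
    rw [e]
    exact mul_mem hcB (inv_mem hcB')) (by
    have e : n⁻¹ * 1 * n = 1 := by group
    rw [e]
    exact up_one) h2
  refine ⟨X, hX, h3.symm, c, hcB, ?_, hxe⟩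
  have h5 : c * (th σ c)⁻¹ = 1 := by
    have : n⁻¹ * (n * (c * (th σ c)⁻¹) * n⁻¹) * n = n⁻¹ * 1 * n := by rw [h4]
    calc c * (th σ c)⁻¹ = n⁻¹ * (n * (c * (th σ c)⁻¹) * n⁻¹) * n := by group
      _ = n⁻¹ * 1 * n := this
      _ = 1 := by group
  exact (mul_inv_eq_one.1 h5).symm

/-- the permutation of the double coset of a fixed element -/
lemma cell_cr {x n : SLm m F} {w : Equiv.Perm (Fin (m + 1))} (hn : Mon n w) (hx : th σ x = x)
    (hd : DC (BU m F) n x) : Cr w := by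
  obtain ⟨a, ha, b, hb, hab⟩ := hd
  have h1 : DC (BU m F) (th σ n) x :=
    ⟨th σ a, up_th σ ha, th σ b, up_th σ hb, by rw [← map_mul, ← map_mul, ← hab, hx]⟩
  have h2 := (sl_BN0 (F := F) (m := m)).inj ⟨_, hn⟩ ⟨_, mon_th σ hn⟩
    (DC.trans ⟨a, ha, b, hb, hab⟩ h1.symm)
  have h3 := mon_up (mon_mul (mon_inv hn) (mon_th σ hn)) h2
  rw [inv_mul_eq_one] at h3
  exact h3.symm

end

end Vale.Agent.P240.R2.H487.CG
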