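import Vale.Agent.P240.R2.H487.CG.A4

/-!
The BN-pair of the fixed group.
-/

set_option autoImplicit false
set_option linter.all false

namespace Vale.Agent.P240.R2.H487.CG

open Subgroup Matrix Vale.Agent.P240.H195

section
variable {F : Type*} [Field F] [Finite F] {m : ℕ}

/-- the double coset of `x` belongs to the permutation `w` -/
def Cell (w : Equiv.Perm (Fin (m + 1))) (x : SLm m F) : Prop := ∃ n, Mon n w ∧ DC (BU m F) n x

lemma cell_DC {w : Equiv.Perm (Fin (m + 1))} {x n : SLm m F} (h : Cell w x) (hn : Mon n w) :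
    DC (BU m F) n x := by
  obtain ⟨n', hn', hd⟩ := h
  have h1 := mon_mul (mon_inv hn) hn'
  rw [inv_mul_cancel] at h1
  exact DC.trans ⟨1, one_mem _, n⁻¹ * n', mem_T' h1, by group⟩ hd

lemma cell_sw {w : Equiv.Perm (Fin (m + 1))} {x s : SLm m F} {i : Fin m} (h : Cell w x)
    (hs : Mon s (sw i)) : Cell w (s * x) ∨ Cell (sw i * w) (s * x) := by
  obtain ⟨n, hn, a, ha, b, hb, rfl⟩ := h
  have e : s * (a * n * b) = (s * a * n) * b := by group
  rcases (sl_BN0 (F := F) (m := m)).mul s ⟨i, hs⟩ a ha n ⟨w, hn⟩ with h1 | h1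
  · left
    rw [e]
    exact ⟨n, hn, h1.right hb⟩
  · right
    rw [e]
    exact ⟨s * n, mon_mul hs hn, h1.right hb⟩

variable {σ : F ≃+* F}

lemma not_cr_sw {i : Fin m} (h : 2 * i.val + 1 ≠ m) : ¬ Cr (sw i) := by
  intro hc
  have h1 : sw (Fin.rev i) = sw i := by rw [← rv_sw]; exact hc
  have h2 := congrArg (fun v : Equiv.Perm (Fin (m + 1)) => v i.castSucc) h1
  simp only [sw] at h2
  rw [Equiv.swap_apply_left, Equiv.swap_apply_def] at h2
  have hr : (Fin.rev i).val = m - (i.val + 1) := Fin.val_rev i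
  split_ifs at h2 with h3 h4
  · rw [Fin.ext_iff, Fin.val_castSucc, Fin.val_castSucc] at h3
    omega
  · rw [Fin.ext_iff, Fin.val_castSucc, Fin.val_succ] at h4 h2
    omega
  · exact cs_ne i h2

lemma cr_left {u w : Equiv.Perm (Fin (m + 1))} (hw : Cr w) (h : Cr (u * w)) : Cr u := by
  have := h.mul hw.inv
  rwa [mul_assoc, mul_inv_cancel, mul_one] at this

/-- the cells met by `s x` -/
lemma cell_typ {w τ : Equiv.Perm (Fin (m + 1))} {x s : SLm m F} (hτ : Typ τ) (hs : Mon s τ)
    (hsf : th σ s = s) (hxf : th σ x = x) (hw : Cr w) (h : Cell w x) :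
    Cell w (s * x) ∨ Cell (τ * w) (s * x) := by
  have hfix : th σ (s * x) = s * x := by rw [map_mul, hsf, hxf]
  have hcr : ∀ v, Cell v (s * x) → Cr v := fun v ⟨n, hn, hd⟩ => cell_cr σ hn hfix hd
  rcases hτ with ⟨i, h1, h2⟩ | ⟨i, hi⟩
  · by_cases h3 : 2 * i.val + 1 = m
    · have e : Fin.rev i.castSucc = i.succ := by
        rw [Fin.ext_iff, Fin.val_succ]
        have : (Fin.rev i.castSucc).val + i.val = m := rev_val i.castSucc
        omega
      rw [e] at hs ⊢
      exact cell_sw h hs
    · -- three factors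
      have hk : (Fin.rev i).val = i.val + 1 := by rw [Fin.val_rev]; omega
      have e0 : (Fin.rev i).castSucc = i.succ := by
        rw [Fin.ext_iff, Fin.val_castSucc, Fin.val_succ, hk]
      have e : Equiv.swap i.castSucc (Fin.rev i.castSucc) = sw i * sw (Fin.rev i) * sw i := by
        rw [rev_castSucc']
        have h4 := Equiv.swap_mul_swap_mul_swap (x := (Fin.rev i).succ) (y := i.succ)
          (z := i.castSucc) (by rw [Ne, Fin.ext_iff, Fin.val_succ, Fin.val_succ, hk]; omega)
          (by rw [Ne, Fin.ext_iff, Fin.val_castSucc, Fin.val_succ, hk]; omega)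
        rw [← h4]
        simp only [sw]
        rw [e0, Equiv.swap_comm i.castSucc i.succ, Equiv.swap_comm (Fin.rev i).succ i.succ]
      have hni : ¬ Cr (sw i) := not_cr_sw h3
      have hnk : ¬ Cr (sw (Fin.rev i)) := not_cr_sw (by rw [hk]; omega)
      have hne : sw i * sw (Fin.rev i) ≠ sw (Fin.rev i) * sw i := by
        have hlt : i.val + 1 < m := by have := (Fin.rev i).2; omega
        have h5 := sw_ne (m := m) (k := i.val) hlt
        have e1 : (⟨i.val + 1, hlt⟩ : Fin m) = Fin.rev i := by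
          rw [Fin.ext_iff, hk]
        rw [e1] at h5
        exact h5
      have hab : ¬ Cr (sw i * sw (Fin.rev i)) := by
        intro hc
        have h5 : rv (sw i * sw (Fin.rev i)) = sw i * sw (Fin.rev i) := hc
        rw [rv_mul, rv_sw, rv_sw, Fin.rev_rev] at h5
        exact hne h5.symm
      have hba : ¬ Cr (sw (Fin.rev i) * sw i) := by
        intro hc
        have h5 : rv (sw (Fin.rev i) * sw i) = sw (Fin.rev i) * sw i := hc
        rw [rv_mul, rv_sw, rv_sw, Fin.rev_rev] at h5
        exact hne h5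
      obtain ⟨s1, hs1⟩ := exists_mon (F := F) (m := m) (sw i)
      obtain ⟨s2, hs2⟩ := exists_mon (F := F) (m := m) (sw (Fin.rev i))
      have hs3 : Mon ((s1 * s2)⁻¹ * s) (sw i) := by
        have h6 := mon_mul (mon_inv (mon_mul hs1 hs2)) hs
        rw [e, ← mul_assoc, ← mul_assoc] at h6
        have e3 : (sw i * sw (Fin.rev i))⁻¹ * sw i * sw (Fin.rev i) * sw i = sw i := by group
        rwa [e3] at h6
      have ex : s * x = s1 * (s2 * (((s1 * s2)⁻¹ * s) * x)) := by group
      rw [ex] at hcr ⊢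
      rw [e]
      rcases cell_sw h hs3 with h7 | h7 <;> rcases cell_sw h7 hs2 with h8 | h8 <;>
        rcases cell_sw h8 hs1 with h9 | h9
      · exact Or.inl h9
      · exact absurd (cr_left hw (hcr _ h9)) hni
      · exact absurd (cr_left hw (hcr _ h9)) hnk
      · rw [← mul_assoc] at h9
        exact absurd (cr_left hw (hcr _ h9)) hab
      · exact absurd (cr_left hw (hcr _ h9)) hni
      · rw [← mul_assoc, Equiv.swap_mul_self, one_mul] at h9
        exact Or.inl h9
      · rw [← mul_assoc] at h9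
        exact absurd (cr_left hw (hcr _ h9)) hba
      · right
        rwa [← mul_assoc, ← mul_assoc] at h9
  · obtain ⟨s1, hs1⟩ := exists_mon (F := F) (m := m) (sw i)
    have hs2 : Mon (s1⁻¹ * s) (sw (Fin.rev i)) := by
      have := mon_mul (mon_inv hs1) hs
      rwa [← mul_assoc, inv_mul_cancel, one_mul] at this
    have e : s * x = s1 * ((s1⁻¹ * s) * x) := by group
    have hni : 2 * i.val + 1 ≠ m := by omega
    have hnr : 2 * (Fin.rev i).val + 1 ≠ m := by rw [Fin.val_rev]; omega
    rw [e] at hcr ⊢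
    rcases cell_sw h hs2 with h4 | h4 <;> rcases cell_sw h4 hs1 with h5 | h5
    · exact Or.inl h5
    · exact absurd (cr_left hw (hcr _ h5)) (not_cr_sw hni)
    · exact absurd (cr_left hw (hcr _ h5)) (not_cr_sw hnr)
    · right
      rwa [← mul_assoc] at h5

end

end Vale.Agent.P240.R2.H487.CG
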