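import Vale.Agent.P240.R2.H487.CG.A5

/-!
The BN-pair of the fixed group, part 2.
-/

set_option autoImplicit false
set_option linter.all false

namespace Vale.Agent.P240.R2.H487.CG

open Subgroup Matrix Vale.Agent.P240.H195

section
variable {F : Type*} [Field F] [Finite F] {m : ℕ} (σ : F ≃+* F)

/-- upper triangular matrices of the fixed group -/
abbrev BG : Subgroup ↥(GJ (m + 1) σ) := (BU m F).subgroupOf (GJ (m + 1) σ)

/-- monomial matrices of the fixed group -/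
abbrev NG : Subgroup ↥(GJ (m + 1) σ) := (NM m F).subgroupOf (GJ (m + 1) σ)

/-- unitriangular matrices of the fixed group -/
abbrev UG : Subgroup ↥(GJ (m + 1) σ) := (UU m F).subgroupOf (GJ (m + 1) σ)

/-- the simple reflections of the fixed group -/
def SG : Set ↥(GJ (m + 1) σ) := {s | ∃ τ, Typ τ ∧ Mon s.1 τ}

variable {σ}

lemma mem_BG {x : ↥(GJ (m + 1) σ)} : x ∈ BG σ ↔ IsUp x.1 := Iff.rfl

lemma mem_NG {x : ↥(GJ (m + 1) σ)} : x ∈ NG σ ↔ ∃ w, Mon x.1 w := Iff.rfl

lemma mem_UG {x : ↥(GJ (m + 1) σ)} : x ∈ UG σ ↔ x.1 ∈ UU m F := Iff.rfl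

lemma fixed (x : ↥(GJ (m + 1) σ)) : th σ x.1 = x.1 := (mem_GJ_iff σ).1 x.2

/-- elements of the fixed group -/
def mkG {A : SLm m F} (h : th σ A = A) : ↥(GJ (m + 1) σ) := ⟨A, (mem_GJ_iff σ).2 h⟩

lemma exists_NG {w : Equiv.Perm (Fin (m + 1))} (hw : Cr w) :
    ∃ n : ↥(GJ (m + 1) σ), Mon n.1 w := by
  obtain ⟨s, hs, hsw⟩ := exists_fix_mon (F := F) σ hw
  exact ⟨mkG hs, hsw⟩

/-- double cosets of the fixed group -/
lemma DC_fixed {p : ℕ} [hp : Fact p.Prime] [CharP F p] (hm : 0 < m) {x n : ↥(GJ (m + 1) σ)}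
    {w : Equiv.Perm (Fin (m + 1))} (hn : Mon n.1 w) (h : Cell w x.1) : DC (BG σ) n x := by
  obtain ⟨a, ha, haf, b, hb, hbf, hx⟩ := fix_DC (p := p) σ hm hn (fixed n) (fixed x) (cell_DC h hn)
  exact ⟨mkG haf, ha.1, mkG hbf, hb, Subtype.ext hx⟩

lemma not_up {x s : SLm m F} {τ : Equiv.Perm (Fin (m + 1))} (hs : Mon s τ) {a b : Fin (m + 1)}
    (hτ : τ b < τ a) (hx : x.1 a b ≠ 0) : ¬ IsUp (s * x * s⁻¹) := by
  intro h
  exact (mon_conj_ne hs x a b).2 hx (h _ _ hτ)

lemma th_tx_cs (i : Fin m) (c : F) : th σ (tx (cs_ne i) c) = tx (cs_ne (Fin.rev i)) (σ c) := by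
  rw [th_tx]
  refine tx_congr (rev_succ' i) (rev_castSucc' i) ?_
  rw [Fin.val_castSucc, Fin.val_succ]
  have : ((-1 : F)) ^ (i.val + (i.val + 1)) = -1 := Odd.neg_one_pow ⟨i.val, by omega⟩
  rw [this]
  ring

omit [Finite F] in
lemma tx_braid {x y z : Fin (m + 1)} (hxy : x ≠ y) (hyz : y ≠ z) (hxz : x ≠ z) (c : F) :
    tx hxy (1 : F) * (tx hyz 1 * tx hxz c) = tx hyz 1 * (tx hxy 1 * tx hxz (1 + c)) := by
  refine sl_ext fun a b => ?_
  rw [tx_mul_apply, tx_mul_apply, tx_apply, tx_mul_apply, tx_apply, tx_mul_apply, tx_mul_apply,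
    tx_apply, tx_mul_apply, tx_apply]
  by_cases ha : a = x
  · subst ha
    by_cases hb : b = a
    · subst hb; simp [hxy, hyz, hxz, hxy.symm, hyz.symm, hxz.symm, tx_apply]
    · by_cases hb' : b = y
      · subst hb'; simp [hxy, hyz, hxz, hxy.symm, hyz.symm, hxz.symm, tx_apply]
      · by_cases hb'' : b = z
        · subst hb''; simp [hxy, hyz, hxz, hxy.symm, hyz.symm, hxz.symm, tx_apply]; try ring
        · simp [hxy, hyz, hxz, hxy.symm, hyz.symm, hxz.symm, hb, hb', hb'', Ne.symm hb,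
            Ne.symm hb', Ne.symm hb'', tx_apply]
  · by_cases ha' : a = y
    · subst ha'
      by_cases hb : b = x
      · subst hb; simp [hxy, hyz, hxz, hxy.symm, hyz.symm, hxz.symm, tx_apply]
      · by_cases hb' : b = a
        · subst hb'; simp [hxy, hyz, hxz, hxy.symm, hyz.symm, hxz.symm, tx_apply]
        · by_cases hb'' : b = z
          · subst hb''; simp [hxy, hyz, hxz, hxy.symm, hyz.symm, hxz.symm, tx_apply]
          · simp [hxy, hyz, hxz, hxy.symm, hyz.symm, hxz.symm, hb, hb', hb'', Ne.symm hb,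
              Ne.symm hb', Ne.symm hb'', tx_apply]
    · simp [ha, ha', tx_apply]

/-- an element of the middle root subgroup in odd dimension -/
lemma exists_mid_elt (i : Fin m) (h1 : 2 * i.val + 2 = m)
    (hodd : (∃ x, σ x ≠ x) ∨ (2 : F) ≠ 0) (hσ : ∀ x, σ (σ x) = x) :
    ∃ u : SLm m F, th σ u = u ∧ u ∈ UU m F ∧
      (u.1 i.castSucc i.succ ≠ 0 ∨ u.1 i.castSucc (Fin.rev i.castSucc) ≠ 0) := by
  have hv : (Fin.rev i.castSucc).val + i.val = m := rev_val i.castSucc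
  have hne : i.castSucc ≠ Fin.rev i.castSucc := by
    rw [Ne, Fin.ext_iff, Fin.val_castSucc]; omega
  have hlt : i.castSucc < Fin.rev i.castSucc := by
    rw [Fin.lt_def, Fin.val_castSucc]; omega
  have hth : ∀ c : F, th σ (tx hne c) = tx hne (-σ c) := by
    intro c
    rw [th_tx]
    refine tx_congr (Fin.rev_rev _) rfl ?_
    have : ((-1 : F)) ^ (i.castSucc.val + (Fin.rev i.castSucc).val) = 1 :=
      Even.neg_one_pow (Nat.even_iff.2 (by rw [Fin.val_castSucc]; omega))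
    rw [this, one_mul]
  rcases hodd with ⟨y, hy⟩ | h2
  · refine ⟨tx hne (y - σ y), ?_, ⟨tx_up hlt _, tx_diag hne _⟩, Or.inr ?_⟩
    · rw [hth]
      congr 1
      rw [map_sub, hσ]
      ring
    · rw [tx_apply, if_neg hne, if_pos ⟨rfl, rfl⟩, zero_add]
      exact sub_ne_zero.2 hy.symm
  · have hy : Fin.rev i.succ = i.succ := by
      rw [Fin.ext_iff]
      have := rev_val i.succ
      rw [Fin.val_succ] at this ⊢
      omega
    have hyz : i.succ ≠ Fin.rev i.castSucc := by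
      rw [Ne, Fin.ext_iff, Fin.val_succ]; omega
    have hlt' : i.succ < Fin.rev i.castSucc := by
      rw [Fin.lt_def, Fin.val_succ]; omega
    have e1 : th σ (tx (cs_ne i) 1) = tx hyz 1 := by
      rw [th_tx]
      refine tx_congr hy rfl ?_
      have : ((-1 : F)) ^ (i.castSucc.val + i.succ.val) = -1 :=
        Odd.neg_one_pow ⟨i.val, by rw [Fin.val_castSucc, Fin.val_succ]; omega⟩
      rw [this, map_one]
      ring
    have e2 : th σ (tx hyz 1) = tx (cs_ne i) 1 := by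
      rw [th_tx]
      refine tx_congr (Fin.rev_rev _) hy ?_
      have : ((-1 : F)) ^ (i.succ.val + (Fin.rev i.castSucc).val) = -1 :=
        Odd.neg_one_pow (Nat.odd_iff.2 (by rw [Fin.val_succ]; omega))
      rw [this, map_one]
      ring
    set c : F := -(2⁻¹) with hc
    have hcσ : -σ c = 1 + c := by
      rw [hc, map_neg, map_inv₀, map_ofNat]
      field_simp
      ring
    refine ⟨tx (cs_ne i) 1 * (tx hyz 1 * tx hne c), ?_, ?_, Or.inl ?_⟩
    · rw [map_mul, map_mul, hth, e1, e2, hcσ, tx_braid (cs_ne i) hyz hne]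
    · refine mul_mem ⟨tx_up (cs_lt _) _, tx_diag (cs_ne _) _⟩
        (mul_mem ⟨tx_up hlt' _, tx_diag hyz _⟩ ⟨tx_up hlt _, tx_diag hne _⟩)
    · have n1 : i.castSucc ≠ i.succ := cs_ne i
      rw [tx_mul_apply, tx_mul_apply, tx_apply, tx_mul_apply, tx_apply]
      simp [n1, hyz, hne, n1.symm, hyz.symm, hne.symm]
      rw [tx_diag]
      exact one_ne_zero

lemma exists_thick {τ : Equiv.Perm (Fin (m + 1))} (hτ : Typ τ) (hσ : ∀ x, σ (σ x) = x)
    (hodd : m % 2 = 1 ∨ (∃ x, σ x ≠ x) ∨ (2 : F) ≠ 0) :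
    ∃ u : SLm m F, th σ u = u ∧ u ∈ UU m F ∧ ∃ a b, τ b < τ a ∧ u.1 a b ≠ 0 := by
  rcases hτ with ⟨i, h1, h2⟩ | ⟨i, hi⟩
  · have hv : (Fin.rev i.castSucc).val + i.val = m := rev_val i.castSucc
    by_cases h3 : 2 * i.val + 1 = m
    · have hr : Fin.rev i = i := by rw [Fin.ext_iff, Fin.val_rev]; omega
      refine ⟨tx (cs_ne i) 1, ?_, ⟨tx_up (cs_lt _) _, tx_diag (cs_ne _) _⟩, i.castSucc, i.succ,
        ?_, ?_⟩
      · rw [th_tx_cs, map_one]
        exact tx_congr (by rw [hr]) (by rw [hr]) rfl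
      · have e : Fin.rev i.castSucc = i.succ := by
          rw [Fin.ext_iff, Fin.val_succ]; omega
        rw [e, Equiv.swap_apply_left, Equiv.swap_apply_right]
        exact cs_lt i
      · rw [tx_apply, if_neg (cs_ne i), if_pos ⟨rfl, rfl⟩, zero_add]
        exact one_ne_zero
    · obtain ⟨u, hu1, hu2, hu3⟩ := exists_mid_elt (σ := σ) i (by omega)
        (hodd.resolve_left (by omega)) hσ
      rcases hu3 with hu3 | hu3
      · refine ⟨u, hu1, hu2, _, _, ?_, hu3⟩
        rw [Equiv.swap_apply_left, Equiv.swap_apply_of_ne_of_ne (cs_ne i).symm]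
        · rw [Fin.lt_def, Fin.val_succ]; omega
        · rw [Ne, Fin.ext_iff, Fin.val_succ]; omega
      · refine ⟨u, hu1, hu2, _, _, ?_, hu3⟩
        rw [Equiv.swap_apply_left, Equiv.swap_apply_right, Fin.lt_def, Fin.val_castSucc]
        omega
  · have hr : (Fin.rev i).val = m - (i.val + 1) := Fin.val_rev i
    have hcm : tx (cs_ne i) (1 : F) * tx (cs_ne (Fin.rev i)) 1 =
        tx (cs_ne (Fin.rev i)) 1 * tx (cs_ne i) 1 := by
      refine tx_comm' _ _ ?_ ?_ _ _ <;>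
        rw [Ne, Fin.ext_iff] <;> simp only [Fin.val_castSucc, Fin.val_succ] <;> omega
    refine ⟨tx (cs_ne i) 1 * tx (cs_ne (Fin.rev i)) 1, ?_,
      mul_mem ⟨tx_up (cs_lt _) _, tx_diag (cs_ne _) _⟩ ⟨tx_up (cs_lt _) _, tx_diag (cs_ne _) _⟩,
      i.castSucc, i.succ, ?_, ?_⟩
    · rw [map_mul, th_tx_cs, th_tx_cs, map_one, hcm]
      congr 1
      exact tx_congr (by rw [Fin.rev_rev]) (by rw [Fin.rev_rev]) rfl
    · have h1 : sw (Fin.rev i) i.succ = i.succ := by
        refine Equiv.swap_apply_of_ne_of_ne ?_ ?_ <;> rw [Ne, Fin.ext_iff] <;>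
          simp only [Fin.val_castSucc, Fin.val_succ] <;> omega
      have h2 : sw (Fin.rev i) i.castSucc = i.castSucc := by
        refine Equiv.swap_apply_of_ne_of_ne ?_ ?_ <;> rw [Ne, Fin.ext_iff] <;>
          simp only [Fin.val_castSucc, Fin.val_succ] <;> omega
      rw [Equiv.Perm.mul_apply, Equiv.Perm.mul_apply, h1, h2]
      simp only [sw]
      rw [Equiv.swap_apply_left, Equiv.swap_apply_right]
      exact cs_lt i
    · rw [tx_mul_apply, tx_apply, tx_apply, if_neg (cs_ne i), if_pos rfl, if_pos rfl, if_neg, if_neg]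
      · simp
      · rintro ⟨h1, h2⟩
        rw [Fin.ext_iff, Fin.val_castSucc, Fin.val_succ] at h1
        omega
      · rintro ⟨h1, h2⟩
        rw [Fin.ext_iff, Fin.val_castSucc, Fin.val_castSucc] at h1
        omega

end

end Vale.Agent.P240.R2.H487.CG
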