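import Vale.Agent.P240.H195.SLK
import Vale.Agent.P240.R2.H487.CG.B1
import Vale.Agent.P240.R2.H487.SubBN

/-!
The groups `Ω_n(F)`, `n` odd, are of Lie type.
-/

set_option autoImplicit false
set_option linter.all false

namespace Vale.Agent.P240.R2.H487.CG

open Subgroup Matrix Vale.Agent.P240.K Vale.Agent.P240.H195

universe u v

section
variable {L : Type*} [Group L] {B N U : Subgroup L} {S : Set L} {r : ℕ}

lemma U_le_of_sq (h : SB r B N U S) (hr : r.Prime) (hr2 : r ≠ 2) {H : Subgroup L}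
    (hsq : ∀ x : L, x * x ∈ H) : U ≤ H := by
  intro u hu
  obtain ⟨k, hk⟩ := h.pgroup ⟨u, hu⟩
  have hk' : u ^ (r ^ k) = 1 := congrArg Subtype.val hk
  have hodd : Odd (r ^ k) := (hr.odd_of_ne_two hr2).pow
  obtain ⟨c, hc⟩ := hodd
  have h1 : u = u ^ (c + 1) * u ^ (c + 1) := by
    rw [← pow_add]
    have : c + 1 + (c + 1) = (2 * c + 1) + 1 := by ring
    rw [this, pow_succ, ← hc, hk', one_mul]
  rw [h1]
  exact hsq _

/-- **Restriction** to a normal subgroup of exponent two -/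
theorem lieType_sub [Finite L] (h : SplitBN r B N U S) (hr : r.Prime) (hr2 : r ≠ 2)
    {H : Subgroup L} [H.Normal] (hsq : ∀ x : L, x * x ∈ H) (hs : IsSimpleGroup H)
    (hZ : ∀ x : H, (∀ y, x * y = y * x) → x = 1) : LieType r H :=
  ⟨hs, hZ, _, _, _, _, CG.SplitBN.subgroup h (U_le_of_sq h.toSB hr hr2 hsq)⟩

end

/-- **Lie type**, `Ω_n(F)` -/
theorem om_lieType {F : Type*} [Field F] [Finite F] {m : ℕ} {p : ℕ} [hp : Fact p.Prime] [CharP F p]
    (hm : 0 < m) (hp2 : p ≠ 2)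
    (hsq : ∀ x : PGJ (m + 1) (RingEquiv.refl F), x * x ∈ commutator (PGJ (m + 1) (RingEquiv.refl F)))
    (hs : IsSimpleGroup (commutator (PGJ (m + 1) (RingEquiv.refl F))))
    (hZ : ∀ x : commutator (PGJ (m + 1) (RingEquiv.refl F)), (∀ y, x * y = y * x) → x = 1) :
    LieType p (commutator (PGJ (m + 1) (RingEquiv.refl F))) := by
  have h2 : (2 : F) ≠ 0 := by
    intro h
    have h1 : p ∣ 2 := (CharP.cast_eq_zero_iff F p 2).1 (by exact_mod_cast h)
    exact hp2 ((Nat.prime_dvd_prime_iff_eq hp.out Nat.prime_two).1 h1)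
  exact lieType_sub (pg_split (p := p) hm (fun _ => rfl) (Or.inr (Or.inr h2))) hp.out hp2 hsq hs hZ

end Vale.Agent.P240.R2.H487.CG
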